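import Vale.Agent.P025.R2.H746.Defs

/-! # P025 (7.8): comparison of two functions near `p`-th powers at one absolute value -/

open Polynomial P025H746

namespace P025H725

variable {C K : Type*} [NormedField C] [Field K] [Algebra C K]

/-- `f` is split at `w` : `f = y ^ p (1 + h)`, `|h| < |λ| ^ p`, `|λ| ^ (p-1) = |p|`. -/
def SplitW (p : ℕ) (w : NV C K) (f : K) : Prop :=
  ∃ y : K, y ≠ 0 ∧ w (f / y ^ p - 1) ^ (p - 1) < ‖(p : C)‖ ^ p

/-- `f` is near a `p`-th power at `w`. -/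
def NearW (p : ℕ) (w : NV C K) (f : K) : Prop :=
  ∃ y : K, y ≠ 0 ∧ w (f / y ^ p - 1) ^ (p - 1) ≤ ‖(p : C)‖ ^ p

section lam

variable {p : ℕ} {l : C}

theorem norm_l_pow (hl : l ^ (p - 1) = -(p : C)) : ‖l‖ ^ (p - 1) = ‖(p : C)‖ := by
  rw [← norm_pow, hl, norm_neg]

theorem norm_l_lt (hpC : ‖(p : C)‖ < 1) (hl : l ^ (p - 1) = -(p : C)) :
    ‖l‖ < 1 := by
  by_contra h
  push Not at h
  have := one_le_pow₀ h (n := p - 1)
  rw [norm_l_pow hl] at this
  linarith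

theorem norm_l_pow_p (hl : l ^ (p - 1) = -(p : C)) :
    (‖l‖ ^ p) ^ (p - 1) = ‖(p : C)‖ ^ p := by
  rw [← pow_mul, mul_comm, pow_mul, norm_l_pow hl]

theorem norm_l_pos (hp : p.Prime) (h0 : (p : C) ≠ 0) (hl : l ^ (p - 1) = -(p : C)) : 0 < ‖l‖ := by
  rw [norm_pos_iff]
  rintro rfl
  rw [zero_pow (Nat.sub_ne_zero_of_lt hp.one_lt)] at hl
  exact h0 (neg_eq_zero.1 hl.symm)

theorem lt_of_pow_lt' (hl : l ^ (p - 1) = -(p : C)) {x : ℝ}
    (h : x ^ (p - 1) < ‖(p : C)‖ ^ p) : x < ‖l‖ ^ p := by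
  rw [← norm_l_pow_p hl] at h
  exact lt_of_pow_lt_pow_left₀ _ (by positivity) h

theorem le_of_pow_le' (hp : p.Prime) (hl : l ^ (p - 1) = -(p : C)) {x : ℝ}
    (h : x ^ (p - 1) ≤ ‖(p : C)‖ ^ p) : x ≤ ‖l‖ ^ p := by
  rw [← norm_l_pow_p hl] at h
  exact le_of_pow_le_pow_left₀ (Nat.sub_ne_zero_of_lt hp.one_lt) (by positivity) h

theorem pow_lt_of_lt' (hp : p.Prime) (hl : l ^ (p - 1) = -(p : C)) {x : ℝ} (hx : 0 ≤ x)
    (h : x < ‖l‖ ^ p) : x ^ (p - 1) < ‖(p : C)‖ ^ p := by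
  rw [← norm_l_pow_p hl]
  exact pow_lt_pow_left₀ h hx (Nat.sub_ne_zero_of_lt hp.one_lt)

end lam

variable [IsUltrametricDist C] {p : ℕ} {l : C} {w : NV C K}

omit [IsUltrametricDist C] in
/-- the Artin-Schreier form of a function near a `p`-th power -/
theorem NearW.exists_form (hp : p.Prime) (h0 : (p : C) ≠ 0) (hl : l ^ (p - 1) = -(p : C)) {f : K}
    (h : NearW p w f) :
    ∃ y A : K, y ≠ 0 ∧ w A ≤ 1 ∧ f = y ^ p * (1 + algebraMap C K l ^ p * A) := by
  obtain ⟨y, hy, h1⟩ := h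
  have h2 := le_of_pow_le' hp hl h1
  have hl0 : 0 < ‖l‖ := norm_l_pos hp h0 hl
  have hlK : algebraMap C K l ^ p ≠ 0 := by
    refine pow_ne_zero _ ?_
    rw [Ne, map_eq_zero]
    exact norm_pos_iff.1 hl0
  refine ⟨y, (f / y ^ p - 1) / algebraMap C K l ^ p, hy, ?_, ?_⟩
  · rw [map_div₀, map_pow, w.ext', div_le_one (pow_pos hl0 _)]
    exact h2
  · have hyp : y ^ p ≠ 0 := pow_ne_zero _ hy
    field_simp
    ring

/-- `(1 + l b) ^ p = 1 + l ^ p (b ^ p - b)` up to less than `|l| ^ p`. -/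
theorem w_one_add_pow (hp : p.Prime) (hpC : ‖(p : C)‖ < 1) (h0 : (p : C) ≠ 0)
    (hl : l ^ (p - 1) = -(p : C)) {b : K} (hb : w b ≤ 1) :
    w ((1 + algebraMap C K l * b) ^ p - 1 - algebraMap C K l ^ p * (b ^ p - b)) < ‖l‖ ^ p := by
  have hl0 : 0 < ‖l‖ := norm_l_pos hp h0 hl
  have hl1 : ‖l‖ < 1 := norm_l_lt hpC hl
  set L := algebraMap C K l with hL
  have hpl : (p : K) * L = - L ^ p := by
    have h1 : (p : C) * l = - l ^ p := by
      have : l ^ p = l ^ (p - 1) * l := by rw [← pow_succ, Nat.sub_add_cancel hp.one_le]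
      rw [this, hl]
      ring
    have h2 := congrArg (algebraMap C K) h1
    simpa using h2
  -- expansion
  have hexp : (1 + L * b) ^ p - 1 - L ^ p * (b ^ p - b) =
      ∑ i ∈ Finset.Ico 2 p, (L * b) ^ i * ((p.choose i : ℕ) : K) := by
    have h2 : 2 ≤ p := hp.two_le
    have h3 : (1 + L * b) ^ p = ∑ i ∈ Finset.range (p + 1), (L * b) ^ i * ((p.choose i : ℕ) : K) := by
      rw [add_comm, add_pow]
      refine Finset.sum_congr rfl fun i _ => ?_
      rw [one_pow, mul_one]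
    rw [h3, Finset.sum_range_succ, Finset.range_eq_Ico,
      Finset.sum_eq_sum_Ico_succ_bot (by omega : 0 < p),
      Finset.sum_eq_sum_Ico_succ_bot (by omega : 0 + 1 < p)]
    simp only [pow_zero, Nat.choose_zero_right, Nat.cast_one, mul_one, zero_add, pow_one,
      Nat.choose_one_right, Nat.choose_self, one_add_one_eq_two]
    have h4 : L * b * (p : K) = - L ^ p * b := by
      rw [← hpl]; ring
    rw [h4, mul_pow]
    ring
  rw [hexp]
  refine NV.sum_lt (pow_pos hl0 _) fun i hi => ?_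
  rw [Finset.mem_Ico] at hi
  obtain ⟨c, hc⟩ := hp.dvd_choose_self (by omega : i ≠ 0) hi.2
  rw [hc, map_mul, map_pow, map_mul, w.ext', Nat.cast_mul, map_mul]
  have hnat : ∀ n : ℕ, w (n : K) = ‖(n : C)‖ := fun n => by
    rw [← w.ext', map_natCast (algebraMap C K)]
  have hpw : w (p : K) = ‖l‖ ^ (p - 1) := by
    rw [norm_l_pow hl, hnat]
  have hcw : w (c : K) ≤ 1 := by
    rw [hnat]
    exact IsUltrametricDist.norm_natCast_le_one C c
  rw [hpw]
  have h1 : (‖l‖ * w b) ^ i ≤ ‖l‖ ^ 2 := by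
    refine (pow_le_pow_left₀ (by positivity)
      (mul_le_of_le_one_right hl0.le hb) i).trans ?_
    exact pow_le_pow_of_le_one hl0.le hl1.le hi.1
  have h2 : (‖l‖ * w b) ^ i * (‖l‖ ^ (p - 1) * w (c : K)) ≤ ‖l‖ ^ 2 * ‖l‖ ^ (p - 1) := by
    refine mul_le_mul h1 (mul_le_of_le_one_right (by positivity) hcw) (by positivity)
      (by positivity)
  refine h2.trans_lt ?_
  rw [← pow_add]
  exact pow_lt_pow_right_of_lt_one₀ hl0 hl1 (by have := hp.one_lt; omega)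

/-- **Comparison**: equal Artin-Schreier classes give a split quotient. -/
theorem splitW_div (hp : p.Prime) (hpC : ‖(p : C)‖ < 1) (h0 : (p : C) ≠ 0)
    (hl : l ^ (p - 1) = -(p : C)) {f f' y y' A A' b : K} (hy : y ≠ 0) (hy' : y' ≠ 0)
    (hA' : w A' ≤ 1) (hb : w b ≤ 1)
    (hf : f = y ^ p * (1 + algebraMap C K l ^ p * A))
    (hf' : f' = y' ^ p * (1 + algebraMap C K l ^ p * A'))
    (hAS : w (A - A' - (b ^ p - b)) < 1) : SplitW p w (f / f') := by
  have hl0 : 0 < ‖l‖ := norm_l_pos hp h0 hl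
  have hl1 : ‖l‖ < 1 := norm_l_lt hpC hl
  have hwL : w (algebraMap C K l) = ‖l‖ := w.ext' l
  set L := algebraMap C K l with hL
  set ρ := (1 + L * b) ^ p - 1 - L ^ p * (b ^ p - b) with hρ
  have hρw : w ρ < ‖l‖ ^ p := w_one_add_pow hp hpC h0 hl hb
  have hlp1 : ‖l‖ ^ p < 1 := pow_lt_one₀ hl0.le hl1 hp.ne_zero
  have hlp0 : 0 < ‖l‖ ^ p := pow_pos hl0 _
  have hone : ∀ z : K, w z < 1 → w (1 + z) = 1 := by
    intro z hz
    have h1 : w (1 + z) ≤ 1 := NV.add_le (by rw [map_one]) hz.le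
    refine le_antisymm h1 ?_
    by_contra hlt
    push Not at hlt
    have h2 : w ((1 + z) + (-z)) < 1 := NV.add_lt hlt (by rwa [NV.map_neg'])
    rw [add_neg_cancel_right, map_one] at h2
    exact lt_irrefl _ h2
  have hLb : w (L * b) < 1 := by
    rw [map_mul, hwL]
    exact lt_of_le_of_lt (mul_le_of_le_one_right hl0.le hb) hl1
  have hLA' : w (L ^ p * A') < 1 := by
    rw [map_mul, map_pow, hwL]
    exact lt_of_le_of_lt (mul_le_of_le_one_right hlp0.le hA') hlp1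
  have h1b : (1 + L * b) ≠ 0 := by
    intro h
    have := hone _ hLb
    rw [h, map_zero] at this
    exact zero_ne_one this
  have h1A' : (1 + L ^ p * A') ≠ 0 := by
    intro h
    have := hone _ hLA'
    rw [h, map_zero] at this
    exact zero_ne_one this
  refine ⟨y / y' * (1 + L * b), mul_ne_zero (div_ne_zero hy hy') h1b, ?_⟩
  refine pow_lt_of_lt' hp hl (w.av.nonneg _) ?_
  have hbp : w (b ^ p - b) ≤ 1 := NV.sub_le (NV.pow_le_one' hb p) hb
  have hnum : f / f' / (y / y' * (1 + L * b)) ^ p - 1 =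
      (L ^ p * (A - A' - (b ^ p - b)) - ρ - L ^ p * A' * (L ^ p * (b ^ p - b) + ρ)) /
        ((1 + L ^ p * A') * (1 + L * b) ^ p) := by
    have hyp : y ^ p ≠ 0 := pow_ne_zero _ hy
    have hyp' : y' ^ p ≠ 0 := pow_ne_zero _ hy'
    have h1bp : (1 + L * b) ^ p ≠ 0 := pow_ne_zero _ h1b
    rw [hf, hf', hρ, mul_pow, div_pow]
    generalize y ^ p = Y at hyp ⊢
    generalize y' ^ p = Y' at hyp' ⊢
    generalize (1 + L * b) ^ p = B at h1bp ⊢
    field_simp
    ring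
  rw [hnum, map_div₀, map_mul, hone _ hLA', map_pow, hone _ hLb, one_pow, one_mul, div_one]
  refine NV.sub_lt (NV.sub_lt ?_ hρw) ?_
  · rw [map_mul, map_pow, hwL]
    exact mul_lt_of_lt_one_right hlp0 hAS
  · rw [map_mul]
    have h3 : w (L ^ p * (b ^ p - b) + ρ) ≤ ‖l‖ ^ p := by
      refine NV.add_le ?_ hρw.le
      rw [map_mul, map_pow, hwL]
      exact mul_le_of_le_one_right hlp0.le hbp
    have h4 : w (L ^ p * A') * w (L ^ p * (b ^ p - b) + ρ) ≤ w (L ^ p * A') * ‖l‖ ^ p :=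
      mul_le_mul_of_nonneg_left h3 (w.av.nonneg _)
    refine h4.trans_lt ?_
    exact mul_lt_of_lt_one_left hlp0 hLA'

end P025H725
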