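import Mathlib

/-! # Kummer theory in degree `p`: elements whose `p`-th power lies in the base field -/

open Polynomial

namespace P025H725

/-- `W = L(β)`, `β ^ p = f`, `f` not a `p`-th power, `ζ ∈ L` a primitive `p`-th root of unity.
An element `w ∈ W` with `w ^ p ∈ L` is `β ^ j * g` with `g ∈ L`. -/
theorem exists_eq_pow_mul {L W : Type*} [Field L] [Field W] [Algebra L W] {p : ℕ} (hp : p.Prime)
    {ζ : L} (hζ : IsPrimitiveRoot ζ p) {f : L} (hf : ∀ b : L, b ^ p ≠ f) {β : W}
    (hβ : β ^ p = algebraMap L W f) (htop : IntermediateField.adjoin L {β} = ⊤)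
    {w : W} {x : L} (hw : w ^ p = algebraMap L W x) :
    ∃ j < p, ∃ g : L, w = β ^ j * algebraMap L W g := by
  classical
  have hirr : Irreducible (X ^ p - C f : L[X]) := X_pow_sub_C_irreducible_of_prime hp hf
  have hroot : aeval β (X ^ p - C f : L[X]) = 0 := by simp [hβ]
  have hmon : (X ^ p - C f : L[X]).Monic := monic_X_pow_sub_C f hp.ne_zero
  have hint : IsIntegral L β := ⟨_, hmon, by simpa [aeval_def] using hroot⟩
  have hmin : minpoly L β = X ^ p - C f := (minpoly.eq_of_irreducible_of_monic hirr hroot hmon).symm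
  -- power basis
  let pb0 := IntermediateField.adjoin.powerBasis (K := L) hint
  let e : IntermediateField.adjoin L {β} ≃ₐ[L] W :=
    (IntermediateField.equivOfEq htop).trans IntermediateField.topEquiv
  let pb : PowerBasis L W := pb0.map e
  have hgen : pb.gen = β := by
    simp [pb, pb0, e, IntermediateField.adjoin.powerBasis]
  have hdim : pb.dim = p := by
    rw [← PowerBasis.natDegree_minpoly, hgen, hmin, natDegree_X_pow_sub_C]
  have hζβ : aeval (algebraMap L W ζ * β) (minpoly L pb.gen) = 0 := by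
    rw [hgen, hmin, map_sub, aeval_X_pow, aeval_C, mul_pow, ← map_pow, hζ.pow_eq_one, hβ,
      map_one, one_mul, sub_self]
  let σ : W →ₐ[L] W := pb.lift (algebraMap L W ζ * β) hζβ
  have hσβ : σ β = algebraMap L W ζ * β := by
    conv_lhs => rw [← hgen]
    exact pb.lift_gen _ hζβ
  have hζW : IsPrimitiveRoot (algebraMap L W ζ) p := hζ.map_of_injective (algebraMap L W).injective
  by_cases hw0 : w = 0
  · exact ⟨0, hp.pos, 0, by simp [hw0]⟩
  have h1 : (σ w / w) ^ p = 1 := by
    rw [div_pow, ← map_pow, hw, AlgHom.commutes, div_self]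
    rw [← hw]
    exact pow_ne_zero _ hw0
  have : NeZero p := ⟨hp.ne_zero⟩
  obtain ⟨j, hj, hjw⟩ := hζW.eq_pow_of_pow_eq_one h1
  have h2 : σ w = algebraMap L W ζ ^ j * w := by
    rw [hjw, div_mul_cancel₀ _ hw0]
  refine ⟨j, hj, ?_⟩
  -- expansion of `w`
  have hexp : w = ∑ i : Fin pb.dim, algebraMap L W (pb.basis.repr w i) * β ^ (i : ℕ) := by
    conv_lhs => rw [← pb.basis.sum_repr w]
    refine Finset.sum_congr rfl fun i _ => ?_
    rw [pb.basis_eq_pow, hgen, Algebra.smul_def]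
  have hσexp : σ w = ∑ i : Fin pb.dim, algebraMap L W (ζ ^ (i : ℕ) * pb.basis.repr w i) *
      β ^ (i : ℕ) := by
    conv_lhs => rw [hexp]
    rw [map_sum]
    refine Finset.sum_congr rfl fun i _ => ?_
    rw [map_mul, AlgHom.commutes, map_pow, hσβ, mul_pow, map_mul, map_pow]
    ring
  have hcoef : ∀ i : Fin pb.dim, ζ ^ (i : ℕ) * pb.basis.repr w i = ζ ^ j * pb.basis.repr w i := by
    intro i
    have h3 : pb.basis.repr (σ w) i = ζ ^ (i : ℕ) * pb.basis.repr w i := by
      have : σ w = ∑ i : Fin pb.dim, (ζ ^ (i : ℕ) * pb.basis.repr w i) • pb.basis i := by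
        rw [hσexp]
        refine Finset.sum_congr rfl fun i _ => ?_
        rw [pb.basis_eq_pow, hgen, Algebra.smul_def]
      rw [this, pb.basis.repr_sum_self]
    have h4 : pb.basis.repr (σ w) i = ζ ^ j * pb.basis.repr w i := by
      rw [h2, ← map_pow, ← Algebra.smul_def, map_smul, Finsupp.smul_apply, smul_eq_mul]
    rw [← h3, h4]
  have hzero : ∀ i : Fin pb.dim, (i : ℕ) ≠ j → pb.basis.repr w i = 0 := by
    intro i hij
    by_contra hne
    have h5 := mul_right_cancel₀ hne (hcoef i)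
    exact hij (hζ.pow_inj (hdim ▸ i.2) hj h5)
  have hjd : j < pb.dim := hdim ▸ hj
  refine ⟨pb.basis.repr w ⟨j, hjd⟩, ?_⟩
  conv_lhs => rw [hexp]
  rw [Finset.sum_eq_single (⟨j, hjd⟩ : Fin pb.dim)]
  · ring
  · intro i _ hi
    rw [hzero i (fun h => hi (Fin.ext h)), map_zero, zero_mul]
  · intro h
    exact absurd (Finset.mem_univ _) h

/-- Kummer: `x ∈ L` is a `p`-th power in `L(f ^ (1/p))` iff `x = f ^ j * g ^ p`. -/
theorem exists_eq_pow_mul_pow {L W : Type*} [Field L] [Field W] [Algebra L W] {p : ℕ}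
    (hp : p.Prime) {ζ : L} (hζ : IsPrimitiveRoot ζ p) {f : L} (hf : ∀ b : L, b ^ p ≠ f) {β : W}
    (hβ : β ^ p = algebraMap L W f) (htop : IntermediateField.adjoin L {β} = ⊤)
    {x : L} (hx : ∃ w : W, w ^ p = algebraMap L W x) :
    ∃ j < p, ∃ g : L, x = f ^ j * g ^ p := by
  obtain ⟨w, hw⟩ := hx
  obtain ⟨j, hj, g, hg⟩ := exists_eq_pow_mul hp hζ hf hβ htop hw
  refine ⟨j, hj, g, (algebraMap L W).injective ?_⟩
  rw [← hw, hg, mul_pow, ← pow_mul, mul_comm j p, pow_mul, hβ]
  simp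

end P025H725
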