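import Vale.Agent.P025.R2.H544.Points
import Vale.Agent.P025.R2.H373.Gauss
import Vale.Agent.P025.R2.H725.KummerPow

/-! # P025, blueprint (7.6), weak form

If `f` is a `p`-th power on the overlap then it is a `p`-th power on one of the two sides,
provided (NT) holds for `W = L(f ^ (1/p))`. -/

open TensorProduct P025H544

namespace P025H725

/-- `f ∈ L` is a `p`-th power in `A ⊗[F] L`. -/
def PowIn (F A : Type*) {L : Type*} [Field F] [Field A] [Field L] [Algebra F A] [Algebra F L]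
    (p : ℕ) (f : L) : Prop :=
  ∃ a : A ⊗[F] L, a ^ p = (1 : A) ⊗ₜ[F] f

section basic

variable {F A L : Type*} [Field F] [Field A] [Field L] [Algebra F A] [Algebra F L] {p : ℕ}

theorem PowIn.of_pow {f g : L} (h : g ^ p = f) : PowIn F A p f :=
  ⟨1 ⊗ₜ g, by rw [Algebra.TensorProduct.tmul_pow, one_pow, h]⟩

/-- `1 ⊗ f` as a unit -/
noncomputable def tunit (F A : Type*) {L : Type*} [Field F] [Field A] [Field L] [Algebra F A]
    [Algebra F L] (f : L) (hf : f ≠ 0) : (A ⊗[F] L)ˣ :=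
  Units.map (Algebra.TensorProduct.includeRight : L →ₐ[F] A ⊗[F] L).toMonoidHom (Units.mk0 f hf)

@[simp] theorem tunit_val (f : L) (hf : f ≠ 0) :
    (tunit F A f hf : A ⊗[F] L) = (1 : A) ⊗ₜ[F] f := rfl

theorem PowIn.exists_unit {f : L} (hf : f ≠ 0) (hp : p ≠ 0) (h : PowIn F A p f) :
    ∃ a : (A ⊗[F] L)ˣ, a ^ p = tunit F A f hf := by
  obtain ⟨a, ha⟩ := h
  have hu : IsUnit (a ^ p) := by
    rw [ha, ← tunit_val f hf]
    exact Units.isUnit _
  have hua : IsUnit a := (isUnit_pow_iff hp).1 hu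
  refine ⟨hua.unit, Units.ext ?_⟩
  rw [Units.val_pow_eq_pow_val, IsUnit.unit_spec, ha, tunit_val]

theorem PowIn.of_unit {f : L} (hf : f ≠ 0) {a : (A ⊗[F] L)ˣ} (h : a ^ p = tunit F A f hf) :
    PowIn F A p f :=
  ⟨a, by rw [← Units.val_pow_eq_pow_val, h, tunit_val]⟩

theorem PowIn.map {L' : Type*} [Field L'] [Algebra F L'] (φ : L →ₐ[F] L') {f : L}
    (h : PowIn F A p f) : PowIn F A p (φ f) := by
  obtain ⟨a, ha⟩ := h
  exact ⟨tL F A φ a, by rw [← map_pow, ha, tL_tmul]⟩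

theorem PowIn.mul {f g : L} (hf : PowIn F A p f) (hg : PowIn F A p g) : PowIn F A p (f * g) := by
  obtain ⟨a, ha⟩ := hf
  obtain ⟨b, hb⟩ := hg
  exact ⟨a * b, by rw [mul_pow, ha, hb, Algebra.TensorProduct.tmul_mul_tmul, one_mul]⟩

theorem PowIn.inv {f : L} (hp : p ≠ 0) (h : PowIn F A p f) : PowIn F A p f⁻¹ := by
  by_cases hf : f = 0
  · rw [hf, inv_zero]
    exact PowIn.of_pow (g := 0) (zero_pow hp)
  obtain ⟨a, ha⟩ := h.exists_unit hf hp
  refine PowIn.of_unit (inv_ne_zero hf) (a := a⁻¹) ?_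
  rw [inv_pow, ha]
  refine inv_eq_of_mul_eq_one_right (Units.ext ?_)
  rw [Units.val_mul, tunit_val, tunit_val, Algebra.TensorProduct.tmul_mul_tmul, mul_inv_cancel₀ hf,
    one_mul, Units.val_one, Algebra.TensorProduct.one_def]

theorem PowIn.div {f g : L} (hp : p ≠ 0) (hf : PowIn F A p f) (hg : PowIn F A p g) :
    PowIn F A p (f / g) := by
  rw [div_eq_mul_inv]
  exact hf.mul (hg.inv hp)

/-- restriction to the overlap -/
theorem PowIn.bc {B : Type*} [Field B] [Algebra F B] [Algebra A B] [IsScalarTower F A B] {f : L}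
    (h : PowIn F A p f) : PowIn F B p f := by
  obtain ⟨a, ha⟩ := h
  exact ⟨P025H544.bc F A B L a, by rw [← map_pow, ha, bc_tmul, map_one]⟩

/-- if `f ^ j` is a `p`-th power, `j` prime to `p`, then `f` is one -/
theorem PowIn.of_coprime {f : L} (hf : f ≠ 0) {j : ℕ} (hp : p ≠ 0) (hj : Nat.Coprime j p)
    (h : PowIn F A p (f ^ j)) : PowIn F A p f := by
  obtain ⟨c, hc⟩ := h.exists_unit (pow_ne_zero j hf) hp
  set u : (A ⊗[F] L)ˣ := tunit F A f hf with hu
  have hc' : c ^ p = u ^ j := by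
    rw [hc]
    refine Units.ext ?_
    rw [Units.val_pow_eq_pow_val, tunit_val, tunit_val, Algebra.TensorProduct.tmul_pow, one_pow]
  have hbez : (1 : ℤ) = (j : ℤ) * Nat.gcdA j p + (p : ℤ) * Nat.gcdB j p := by
    rw [← Nat.gcd_eq_gcd_ab, hj.gcd_eq_one]; simp
  refine PowIn.of_unit hf (a := c ^ (Nat.gcdA j p) * u ^ (Nat.gcdB j p)) ?_
  have h1 : (c ^ (Nat.gcdA j p)) ^ p = u ^ ((j : ℤ) * Nat.gcdA j p) := by
    rw [← zpow_natCast, ← zpow_mul, mul_comm, zpow_mul, zpow_natCast, hc', ← zpow_natCast,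
      ← zpow_mul]
  have h2 : (u ^ (Nat.gcdB j p)) ^ p = u ^ ((p : ℤ) * Nat.gcdB j p) := by
    rw [← zpow_natCast, ← zpow_mul, mul_comm]
  rw [mul_pow, h1, h2, ← zpow_add, ← hbez, zpow_one]

end basic

section square

variable {F F1 F2 F0 : Type*} [Field F] [Field F1] [Field F2] [Field F0]
  [Algebra F F1] [Algebra F F2] [Algebra F F0] [Algebra F1 F0] [Algebra F2 F0]
  [IsScalarTower F F1 F0] [IsScalarTower F F2 F0] {L : Type*} [Field L] [Algebra F L]

/-- (7.6), weak form. -/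
theorem one_vertex (hP : Patch F F1 F2 F0) [Algebra.IsAlgebraic F L] {p : ℕ} (hp : p.Prime)
    {ζ : L} (hζ : IsPrimitiveRoot ζ p) {W : Type*} [Field W] [Algebra F W] [Algebra L W]
    [IsScalarTower F L W] {f : L} (hf : f ≠ 0) {β : W} (hβ : β ^ p = algebraMap L W f)
    (htop : IntermediateField.adjoin L {β} = ⊤)
    (NT : ∀ x : L, x ≠ 0 → PowIn F F1 p (algebraMap L W x) → PowIn F F2 p (algebraMap L W x) →
      ∃ y : W, y ^ p = algebraMap L W x)
    (h0 : PowIn F F0 p f) : PowIn F F1 p f ∨ PowIn F F2 p f := by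
  by_cases hb : ∃ b : L, b ^ p = f
  · obtain ⟨b, hb⟩ := hb
    exact Or.inl (PowIn.of_pow hb)
  push Not at hb
  have hp0 : p ≠ 0 := hp.ne_zero
  obtain ⟨y, hy⟩ := h0.exists_unit hf hp0
  obtain ⟨x, hx0, ⟨s, hs⟩, ⟨t, ht⟩⟩ := hP.kummer_glue p (tunit F F1 f hf) 1 y (by
    rw [Units.val_one, map_one, one_mul, ← Units.val_pow_eq_pow_val, hy, tunit_val, tunit_val,
      bc_tmul, map_one])
  rw [tunit_val] at hs
  rw [Units.val_one, one_mul] at ht
  have hW1 : PowIn F F1 p (algebraMap L W x) := by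
    refine ⟨(1 : F1) ⊗ₜ β * tL F F1 (IsScalarTower.toAlgHom F L W) s, ?_⟩
    have h1 := congrArg (tL F F1 (IsScalarTower.toAlgHom F L W)) hs
    rw [map_mul, tL_tmul, tL_tmul, map_pow] at h1
    rw [mul_pow, Algebra.TensorProduct.tmul_pow, one_pow, hβ]
    exact h1.symm
  have hW2 : PowIn F F2 p (algebraMap L W x) :=
    PowIn.map (IsScalarTower.toAlgHom F L W) ⟨_, ht.symm⟩
  obtain ⟨j, hj, g, hg⟩ := exists_eq_pow_mul_pow hp hζ hb hβ htop (NT x hx0 hW1 hW2)
  have hg0 : g ≠ 0 := by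
    rintro rfl
    rw [zero_pow hp0, mul_zero] at hg
    exact hx0 hg
  rcases Nat.eq_zero_or_pos j with rfl | hjpos
  · -- `x` is a `p`-th power
    left
    rw [pow_zero, one_mul] at hg
    refine ⟨((1 : F1) ⊗ₜ[F] g) * ((s⁻¹ : (F1 ⊗[F] L)ˣ) : F1 ⊗[F] L), ?_⟩
    rw [mul_pow, Algebra.TensorProduct.tmul_pow, one_pow, ← hg, hs, mul_assoc, ← mul_pow,
      Units.mul_inv, one_pow, mul_one]
  · right
    refine PowIn.of_coprime hf (j := j) hp0 ((Nat.coprime_comm).1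
      ((Nat.Prime.coprime_iff_not_dvd hp).2 fun hd => absurd (Nat.le_of_dvd hjpos hd)
        (not_le.2 hj))) ?_
    have h2 : f ^ j = x / g ^ p := by
      rw [hg, mul_div_cancel_right₀ _ (pow_ne_zero _ hg0)]
    rw [h2]
    exact PowIn.div hp0 ⟨_, ht.symm⟩ (PowIn.of_pow rfl)

end square

end P025H725
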