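import Mathlib

/-! # P025, blueprint (7.7): the abstract end game on discs

`A a r f` : `f` is a `p`-th power on the inside `|t - a| ≤ r`,
`B a r f` : `f` is a `p`-th power on the outside `|t - a| > r`,
`S a r f` : `f` is split at the boundary, i.e. a `p`-th power at all norms over the Gauss norm of
the disc.  All three are closed under multiplication and inverse. -/

namespace P025H725

open Metric Set

/-- spherical completeness: every chain of closed balls has a common point -/
def SphComplete (C : Type*) [NormedField C] : Prop :=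
  ∀ 𝓑 : Set (C × ℝ), 𝓑.Nonempty → (∀ x ∈ 𝓑, 0 < x.2) →
    (∀ x ∈ 𝓑, ∀ y ∈ 𝓑, closedBall x.1 x.2 ⊆ closedBall y.1 y.2 ∨
      closedBall y.1 y.2 ⊆ closedBall x.1 x.2) →
    ∃ a : C, ∀ x ∈ 𝓑, a ∈ closedBall x.1 x.2

/-- spherical completeness from the statement `P025H722.CStar.exists_mem_balls` -/
theorem SphComplete.of_balls {C : Type*} [NormedField C]
    (h : ∀ (s : Set (C × ℝ)) (a : s → C) (r : s → ℝ),
      (∀ i j, r i ≤ r j → ‖a i - a j‖ ≤ r j) → ∃ x, ∀ i, ‖x - a i‖ ≤ r i) :
    SphComplete C := by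
  intro 𝓑 _ hpos hch
  obtain ⟨x, hx⟩ := h 𝓑 (fun i => i.1.1) (fun i => i.1.2) (by
    intro i j hij
    rw [← dist_eq_norm, ← mem_closedBall]
    rcases hch i.1 i.2 j.1 j.2 with h1 | h1
    · exact h1 (mem_closedBall_self (hpos _ i.2).le)
    · have h2 : j.1.1 ∈ closedBall i.1.1 i.1.2 := h1 (mem_closedBall_self (hpos _ j.2).le)
      rw [mem_closedBall'] at h2
      exact mem_closedBall.2 (h2.trans hij))
  exact ⟨x, fun y hy => by rw [mem_closedBall, dist_eq_norm]; exact hx ⟨y, hy⟩⟩

/-- the properties of one class `f ≠ 1` of `H(K,p)` used in (7.7) -/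
structure DiscProps {C : Type*} [NormedField C] (A B S : C → ℝ → Prop) : Prop where
  /-- restriction of the inside to a smaller disc -/
  ins : ∀ a r a' r', 0 < r → 0 < r' → closedBall a r ⊆ closedBall a' r' → A a' r' → A a r
  /-- restriction of the outside to the outside of a bigger disc -/
  out : ∀ a r a' r', 0 < r → 0 < r' → closedBall a r ⊆ closedBall a' r' → B a r → B a' r'
  /-- restriction of the outside of a disc to a disjoint disc -/
  dis : ∀ a r a' r', 0 < r → 0 < r' → Disjoint (closedBall a r) (closedBall a' r') →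
    B a' r' → A a r
  /-- restriction of the inside to the boundary -/
  insS : ∀ a r, 0 < r → A a r → S a r
  /-- restriction of the outside to the boundary -/
  outS : ∀ a r, 0 < r → B a r → S a r
  /-- (7.6) one vertex -/
  one : ∀ a r, 0 < r → S a r → A a r ∨ B a r
  /-- (7.5) (NT), `f ≠ 1` -/
  nt : ∀ a r, 0 < r → A a r → ¬ B a r
  /-- (7.3) just outside -/
  brOut : ∀ a r, 0 < r → ∃ r₁, r < r₁ ∧ ∀ r', r < r' → r' < r₁ → S a r'
  /-- `f` is a `p`-th power near the poles of `t` -/
  large : ∃ R, 0 < R ∧ B 0 R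
  /-- `f` is a `p`-th power on small discs -/
  small : ∀ a, ∃ r, 0 < r ∧ A a r
  /-- overconvergence -/
  ovc : ∀ a r, 0 < r → A a r → ∃ r₁, r < r₁ ∧ A a r₁
  /-- the argument with `1/τ = ∑ b/(t-a_δ)` at the end of (7.7)(ii) -/
  tau : ∀ a r, 0 < r → B a r → (∀ b ∈ closedBall a r, ∀ r', 0 < r' → r' < r → A b r') → False

variable {C : Type*} [NormedField C] [IsUltrametricDist C] {A B S : C → ℝ → Prop}

theorem ball_cases (a a' : C) (r r' : ℝ) :
    closedBall a r ⊆ closedBall a' r' ∨ closedBall a' r' ⊆ closedBall a r ∨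
      Disjoint (closedBall a r) (closedBall a' r') :=
  IsUltrametricDist.closedBall_subset_trichotomy _ _ _ _

/-- (7.7)(ii) every class is nonsplit somewhere -/
theorem DiscProps.exists_nonsplit (hC : SphComplete C) (h : DiscProps A B S) :
    ∃ a r, 0 < r ∧ ¬ S a r := by
  by_contra hcon
  push Not at hcon
  -- all split
  have hor : ∀ a r, 0 < r → A a r ∨ B a r := fun a r hr => h.one a r hr (hcon a r hr)
  have hAB : ∀ a r, 0 < r → (¬ A a r ↔ B a r) := by
    intro a r hr
    constructor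
    · intro hA
      exact (hor a r hr).resolve_left hA
    · intro hB hA
      exact h.nt a r hr hA hB
  set 𝓑 : Set (C × ℝ) := {x | 0 < x.2 ∧ ¬ A x.1 x.2} with h𝓑
  obtain ⟨R, hR, hBR⟩ := h.large
  have hne : 𝓑.Nonempty := ⟨(0, R), hR, (hAB 0 R hR).2 hBR⟩
  have hnd : ∀ x ∈ 𝓑, ∀ y ∈ 𝓑, ¬ Disjoint (closedBall x.1 x.2) (closedBall y.1 y.2) := by
    intro x hx y hy hd
    exact hx.2 (h.dis x.1 x.2 y.1 y.2 hx.1 hy.1 hd ((hAB _ _ hy.1).1 hy.2))
  have hchain : ∀ x ∈ 𝓑, ∀ y ∈ 𝓑, closedBall x.1 x.2 ⊆ closedBall y.1 y.2 ∨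
      closedBall y.1 y.2 ⊆ closedBall x.1 x.2 := by
    intro x hx y hy
    rcases ball_cases x.1 y.1 x.2 y.2 with h1 | h1 | h1
    · exact Or.inl h1
    · exact Or.inr h1
    · exact absurd h1 (hnd x hx y hy)
  obtain ⟨a₀, ha₀⟩ := hC 𝓑 hne (fun x hx => hx.1) hchain
  -- all discs of the chain are centred at `a₀`
  have hcen : ∀ x ∈ 𝓑, closedBall x.1 x.2 = closedBall a₀ x.2 := by
    intro x hx
    exact (IsUltrametricDist.closedBall_eq_of_mem (ha₀ x hx))
  have hA₀ : ∀ x ∈ 𝓑, ¬ A a₀ x.2 := by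
    intro x hx hA
    refine hx.2 (h.ins x.1 x.2 a₀ x.2 hx.1 hx.1 ?_ hA)
    rw [hcen x hx]
  set Rs : Set ℝ := {r | 0 < r ∧ ¬ A a₀ r} with hRs
  have hRsne : Rs.Nonempty := ⟨R, hR, hA₀ (0, R) ⟨hR, (hAB 0 R hR).2 hBR⟩⟩
  have hup : ∀ r ∈ Rs, ∀ r', r ≤ r' → r' ∈ Rs := by
    intro r hr r' hrr
    refine ⟨lt_of_lt_of_le hr.1 hrr, fun hA => hr.2 ?_⟩
    exact h.ins a₀ r a₀ r' hr.1 (lt_of_lt_of_le hr.1 hrr) (closedBall_subset_closedBall hrr) hA
  obtain ⟨ε, hε, hAε⟩ := h.small a₀
  have hlow : ∀ r ∈ Rs, ε ≤ r := by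
    intro r hr
    by_contra hlt
    push Not at hlt
    exact (hup r hr ε hlt.le).2 hAε
  have hbdd : BddBelow Rs := ⟨ε, fun r hr => hlow r hr⟩
  set r₀ := sInf Rs with hr₀
  have hr₀pos : 0 < r₀ := lt_of_lt_of_le hε (le_csInf hRsne hlow)
  by_cases hA : A a₀ r₀
  · obtain ⟨r₁, hr₁, hA₁⟩ := h.ovc a₀ r₀ hr₀pos hA
    obtain ⟨r, hr, hlt⟩ := exists_lt_of_csInf_lt hRsne hr₁
    exact (hup r hr r₁ hlt.le).2 hA₁
  · have hB : B a₀ r₀ := (hAB a₀ r₀ hr₀pos).1 hA
    refine h.tau a₀ r₀ hr₀pos hB ?_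
    intro b _ r' hr' hlt
    by_contra hAb
    have hmem : ((b, r') : C × ℝ) ∈ 𝓑 := ⟨hr', hAb⟩
    have h1 : r' ∈ Rs := ⟨hr', hA₀ _ hmem⟩
    exact absurd (csInf_le hbdd h1) (not_le.2 hlt)

/-- (7.7)(i) at most one disc where `f` is nonsplit -/
theorem DiscProps.unique (h : DiscProps A B S) {a a' : C} {r r' : ℝ} (hr : 0 < r) (hr' : 0 < r')
    (hS : ¬ S a r) (hS' : ¬ S a' r') : closedBall a r = closedBall a' r' := by
  have key : ∀ (a a' : C) (r r' : ℝ), 0 < r → 0 < r' → ¬ S a r → ¬ S a' r' →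
      closedBall a r ⊆ closedBall a' r' → closedBall a r = closedBall a' r' := by
    intro a a' r r' hr hr' hS hS' hsub
    have haa' : a ∈ closedBall a' r' := hsub (mem_closedBall_self hr.le)
    have hce : closedBall a' r' = closedBall a r' := IsUltrametricDist.closedBall_eq_of_mem haa'
    by_cases hlt : r < r'
    · exfalso
      obtain ⟨r₁, hr₁, hspl⟩ := h.brOut a r hr
      obtain ⟨s, hs1, hs2⟩ := exists_between (lt_min hr₁ hlt)
      have hs : 0 < s := hr.trans hs1
      rcases h.one a s hs (hspl s hs1 (lt_of_lt_of_le hs2 (min_le_left _ _))) with hA | hB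
      · exact hS (h.insS a r hr (h.ins a r a s hr hs (closedBall_subset_closedBall hs1.le) hA))
      · refine hS' (h.outS a' r' hr' (h.out a s a' r' hs hr' ?_ hB))
        rw [hce]
        exact closedBall_subset_closedBall (lt_of_lt_of_le hs2 (min_le_right _ _)).le
    · push Not at hlt
      refine subset_antisymm hsub ?_
      rw [hce]
      exact closedBall_subset_closedBall hlt
  rcases ball_cases a a' r r' with h1 | h1 | h1
  · exact key a a' r r' hr hr' hS hS' h1
  · exact (key a' a r' r hr' hr hS' hS h1).symm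
  · exfalso
    obtain ⟨r₁, hr₁, hspl⟩ := h.brOut a r hr
    -- disjoint discs: `max r r' < dist a a'`
    have hd1 : r < dist a' a := by
      by_contra hle
      push Not at hle
      exact (Set.disjoint_left.1 h1) (mem_closedBall.2 hle) (mem_closedBall_self hr'.le)
    have hd2 : r' < dist a a' := by
      by_contra hle
      push Not at hle
      exact (Set.disjoint_left.1 h1) (mem_closedBall_self hr.le) (mem_closedBall.2 hle)
    obtain ⟨s, hs1, hs2⟩ := exists_between (lt_min hr₁ hd1)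
    have hs : 0 < s := hr.trans hs1
    have hdis : Disjoint (closedBall a' r') (closedBall a s) := by
      refine Set.disjoint_left.2 fun x hx hx' => ?_
      have hx1 : dist x a' ≤ r' := mem_closedBall.1 hx
      have hx2 : dist x a ≤ s := mem_closedBall.1 hx'
      have h3 : dist a' a ≤ max (dist a' x) (dist x a) := dist_triangle_max a' x a
      rw [dist_comm a' x] at h3
      have h4 : dist x a' < dist a' a := by
        rw [dist_comm a' a]; exact lt_of_le_of_lt hx1 hd2
      have h5 : dist x a < dist a' a := lt_of_le_of_lt hx2 (lt_of_lt_of_le hs2 (min_le_right _ _))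
      exact absurd h3 (not_le.2 (max_lt h4 h5))
    rcases h.one a s hs (hspl s hs1 (lt_of_lt_of_le hs2 (min_le_left _ _))) with hA | hB
    · exact hS (h.insS a r hr (h.ins a r a s hr hs (closedBall_subset_closedBall hs1.le) hA))
    · exact hS' (h.insS a' r' hr' (h.dis a' r' a s hr' hs hdis hB))

/-- (7.7)(iii): all classes `f ≠ 1` of a group are nonsplit at one and the same disc -/
theorem exists_common_disc (hC : SphComplete C) {H : Type*} [CommGroup H]
    (A B S : H → C → ℝ → Prop) (h : ∀ f : H, f ≠ 1 → DiscProps (A f) (B f) (S f))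
    (Sball : ∀ f a r a' r', 0 < r → 0 < r' → closedBall a r = closedBall a' r' →
      S f a r → S f a' r')
    (Sdiv : ∀ f g a r, 0 < r → S f a r → S g a r → S (f / g) a r) :
    ∃ a r, 0 < r ∧ ∀ f : H, f ≠ 1 → ¬ S f a r := by
  by_cases hH : ∃ f : H, f ≠ 1
  swap
  · push Not at hH
    exact ⟨0, 1, one_pos, fun f hf => absurd (hH f) hf⟩
  obtain ⟨f, hf⟩ := hH
  obtain ⟨a, r, hr, hns⟩ := (h f hf).exists_nonsplit hC
  refine ⟨a, r, hr, fun g hg hSg => ?_⟩
  obtain ⟨a', r', hr', hns'⟩ := (h g hg).exists_nonsplit hC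
  -- `f` is split at the disc of `g`, `g` is split at the disc of `f`
  have hne : closedBall a r ≠ closedBall a' r' := by
    intro he
    exact hns' (Sball g a r a' r' hr hr' he hSg)
  have hSf : S f a' r' := by
    by_contra hcon
    exact hne ((h f hf).unique hr hr' hns hcon)
  have h1 : ¬ S (f * g) a r := by
    intro hS
    apply hns
    have := Sdiv (f * g) g a r hr hS hSg
    rwa [mul_div_assoc, div_self', mul_one] at this
  have h2 : ¬ S (f * g) a' r' := by
    intro hS
    apply hns'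
    have := Sdiv (f * g) f a' r' hr' hS hSf
    rwa [mul_div_right_comm, div_self', one_mul] at this
  have h3 : f * g ≠ 1 := by
    intro h1'
    have hg' : g = f⁻¹ := eq_inv_of_mul_eq_one_right h1'
    apply hns
    have h4 : S (1 : H) a r := by
      have := Sdiv g g a r hr hSg hSg
      rwa [div_self'] at this
    have := Sdiv 1 g a r hr h4 hSg
    rwa [hg', one_div, inv_inv] at this
  exact hne ((h (f * g) h3).unique hr hr' h1 h2)

end P025H725
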