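import Vale.Agent.P025.R2.H725.Genus
import Vale.Agent.P025.R2.H725.SplitNorm
import Vale.Agent.P025.R2.H816.HK
import Vale.Agent.P025.R2.H992.Prank

/-! # P025 (7.8): the final count `2 g ≤ ∑ g_w ≤ 2 g - 1` -/

open Polynomial IntermediateField Vale.Agent.P019P P025H746 P025H816 P025H992

namespace P025H725

universe u

variable {C K : Type u} [NormedField C] [IsUltrametricDist C] [Field K] [Algebra C K]

theorem charP_kap {p : ℕ} (hp : p.Prime) (hpC : ‖(p : C)‖ < 1) (w : NV C K) :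
    CharP (kap w) p := by
  rw [CharP.charP_iff_prime_eq_zero hp]
  have h1 : w.red (algebraMap C K (p : C)) = 0 := by
    rw [NV.red_algebraMap hpC.le, (cred_eq_zero hpC.le).2 hpC, map_zero]
  have h2 : ∀ n : ℕ, w.red (n : K) = (n : kap w) := by
    intro n
    have hn : ∀ n : ℕ, w (n : K) ≤ 1 := fun n => by
      rw [← map_natCast (algebraMap C K), w.ext']
      exact IsUltrametricDist.norm_natCast_le_one C n
    induction n with
    | zero => simp
    | succ n ih => rw [Nat.cast_succ, NV.red_add (hn n) (by rw [map_one]), ih, NV.red_one,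
        Nat.cast_succ]
  rw [map_natCast (algebraMap C K), h2] at h1
  exact h1

theorem red_T_ne {w : NV C K} {T : K} (hT : w.OverG T) (a : kC C) :
    w.red T ≠ algebraMap (kC C) (kap w) a := by
  intro h
  obtain ⟨c, hc, rfl⟩ := cred_surj a
  rw [← NV.red_algebraMap hc] at h
  have hT1 : w T ≤ 1 := by
    have := hT X
    rw [aeval_X] at this
    rw [this]
    rw [P025H373.gp_le_iff]
    intro i
    rw [coeff_X]
    split_ifs <;> simp
  have hc1 : w (algebraMap C K c) ≤ 1 := by rwa [w.ext']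
  have h1 : w.red (T - algebraMap C K c) = 0 := by
    rw [NV.red_sub hT1 hc1, h, sub_self]
  rw [NV.red_eq_zero (NV.sub_le hT1 hc1)] at h1
  have h2 := hT (X - Polynomial.C c)
  rw [map_sub, aeval_X, aeval_C] at h2
  rw [h2, P025H373.gp_lt_iff] at h1
  have h3 := h1 1
  rw [coeff_sub, coeff_X_one, coeff_C] at h3
  simp at h3

variable [CFF C K]

/-- **(7.8)** : the final count. -/
theorem final_count {p : ℕ} (hp : p.Prime) (hpC : ‖(p : C)‖ < 1) (h0 : (p : C) ≠ 0)
    {l : C} (hl : l ^ (p - 1) = -(p : C))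
    {ι : Type*} [Fintype ι] (w : ι → NV C K) [∀ i, CFF (kC C) (kap (w i))]
    {T : K} (hT : ∀ i, (w i).OverG T)
    {N : ℕ} (hN : N ≤ gen C K + 1) (hg : 1 ≤ gen C K)
    (hf1 : ∀ i, 1 ≤ Module.finrank (kC C)⟮(w i).red T⟯ (kap (w i)))
    (hfN : ∑ i, Module.finrank (kC C)⟮(w i).red T⟯ (kap (w i)) ≤ N)
    (hgen : ∑ i, ((gen (kC C) (kap (w i)) : ℤ) - 1) ≤ gen C K - 1)
    (hnear : ∀ f : K, f ≠ 0 → (∀ P : Plk C K, (p : ℤ) ∣ ord P f) → ∀ i, NearW p (w i) f)
    (hbr : ∀ f : K, f ≠ 0 → (∀ P : Plk C K, (p : ℤ) ∣ ord P f) → ∀ i, ∀ y A : K, y ≠ 0 →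
      w i A ≤ 1 → f = y ^ p * (1 + algebraMap C K l ^ p * A) →
      ∀ x : Plk (kC C) (kap (w i)), ∃ b : kap (w i), (w i).red A - (b ^ p - b) ∈ Mge x 0)
    (hns : ∀ f : K, f ≠ 0 → (∀ P : Plk C K, (p : ℤ) ∣ ord P f) → (∀ i, SplitW p (w i) f) →
      ∃ y : K, y ^ p = f) : False := by
  classical
  have hfact : Fact p.Prime := ⟨hp⟩
  have hchar : ∀ i, CharP (kap (w i)) p := fun i => charP_kap hp hpC (w i)
  -- representatives
  let rep : HK C K p → divU C K p := fun h => Quotient.out h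
  have hrep : ∀ h, (QuotientGroup.mk (rep h) : HK C K p) = h := fun h => Quotient.out_eq h
  let fh : HK C K p → K := fun h => ((rep h : Kˣ) : K)
  have hf0 : ∀ h, fh h ≠ 0 := fun h => (rep h : Kˣ).ne_zero
  have hfd : ∀ h, ∀ P : Plk C K, (p : ℤ) ∣ ord P (fh h) := fun h => mem_divU.1 (rep h).2
  choose y A hy hA hf using fun (h : HK C K p) (i : ι) =>
    (hnear (fh h) (hf0 h) (hfd h) i).exists_form hp h0 hl
  have hunr : ∀ h i, (w i).red (A h i) ∈ ASunr (kap (w i)) p (kC C) := by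
    intro h i
    rw [mem_ASunr]
    intro x
    obtain ⟨b, hb⟩ := hbr (fh h) (hf0 h) (hfd h) i (y h i) (A h i) (hy h i) (hA h i) (hf h i) x
    exact ⟨b, mem_iff_Mge.2 hb⟩
  let Φ : HK C K p → (∀ i, ASc (kap (w i)) p (kC C)) := fun h i =>
    QuotientAddGroup.mk ⟨(w i).red (A h i), hunr h i⟩
  have hΦ : Function.Injective Φ := by
    intro h h' hhh
    have hsplit : ∀ i, SplitW p (w i) (fh h / fh h') := by
      intro i
      have h1 : (QuotientAddGroup.mk ⟨(w i).red (A h i), hunr h i⟩ : ASc (kap (w i)) p (kC C)) =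
          QuotientAddGroup.mk ⟨(w i).red (A h' i), hunr h' i⟩ := congrFun hhh i
      have h3 := QuotientAddGroup.eq.1 h1.symm
      rw [neg_add_eq_sub, AddSubgroup.mem_addSubgroupOf] at h3
      obtain ⟨b, hb⟩ := h3
      obtain ⟨β, hβ1, hβ2⟩ := NV.red_surj (w := w i) b
      refine splitW_div hp hpC h0 hl (hy h i) (hy h' i) (hA h' i) hβ1 (hf h i) (hf h' i) ?_
      have h4 : w i (β ^ p - β) ≤ 1 := NV.sub_le (NV.pow_le_one' hβ1 p) hβ1
      have h5 : w i (A h i - A h' i) ≤ 1 := NV.sub_le (hA h i) (hA h' i)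
      rw [← NV.red_eq_zero (NV.sub_le h5 h4), NV.red_sub h5 h4, NV.red_sub (hA h i) (hA h' i),
        NV.red_sub (NV.pow_le_one' hβ1 p) hβ1, NV.red_pow hβ1, hβ2]
      rw [wp_apply] at hb
      rw [hb]
      exact sub_self _
    have hquot : ∀ P : Plk C K, (p : ℤ) ∣ ord P (fh h / fh h') := by
      intro P
      rw [div_eq_mul_inv, ord_mul P (hf0 h) (inv_ne_zero (hf0 h')), Vale.Agent.P019P.ord_inv]
      exact dvd_add (hfd h P) ((hfd h' P).neg_right)
    obtain ⟨z, hz⟩ := hns _ (div_ne_zero (hf0 h) (hf0 h')) hquot hsplit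
    rw [← hrep h, ← hrep h', eq_comm, QuotientGroup.eq, Subgroup.mem_subgroupOf, mem_powU']
    refine ⟨z, ?_⟩
    rw [hz, div_eq_inv_mul]
    simp [fh]
  -- cardinality
  have hfin : ∀ i, Finite (ASc (kap (w i)) p (kC C)) := fun i => card_ASc_le.1
  have hcard : p ^ (2 * gen C K) ≤ p ^ (∑ i, gen (kC C) (kap (w i))) := by
    rw [← card_HK (k := C) (F := K) h0]
    refine (Nat.card_le_card_of_injective Φ hΦ).trans ?_
    rw [Nat.card_pi, ← Finset.prod_pow_eq_pow_sum]
    exact Finset.prod_le_prod' fun i _ => card_ASc_le.2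
  have h2g : 2 * gen C K ≤ ∑ i, gen (kC C) (kap (w i)) :=
    (Nat.pow_le_pow_iff_right hp.one_lt).1 hcard
  -- some genus is positive
  obtain ⟨i₀, hi₀⟩ : ∃ i, gen (kC C) (kap (w i)) ≠ 0 := by
    by_contra hcon
    push Not at hcon
    rw [Finset.sum_eq_zero fun i _ => hcon i] at h2g
    omega
  have hfi₀ : 2 ≤ Module.finrank (kC C)⟮(w i₀).red T⟯ (kap (w i₀)) := by
    by_contra hcon
    have h1 : Module.finrank (kC C)⟮(w i₀).red T⟯ (kap (w i₀)) = 1 := by
      have := hf1 i₀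
      omega
    exact hi₀ (gen_eq_zero_of_finrank_eq_one (red_T_ne (hT i₀)) h1)
  have hι : Fintype.card ι + 1 ≤ N := by
    refine le_trans ?_ hfN
    rw [← Finset.add_sum_erase _ _ (Finset.mem_univ i₀)]
    have h1 : (Finset.univ.erase i₀).card ≤
        ∑ i ∈ Finset.univ.erase i₀, Module.finrank (kC C)⟮(w i).red T⟯ (kap (w i)) := by
      rw [Finset.card_eq_sum_ones]
      exact Finset.sum_le_sum fun i _ => hf1 i
    have h2 : (Finset.univ.erase i₀).card + 1 = Fintype.card ι := by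
      rw [Finset.card_erase_add_one (Finset.mem_univ i₀), Finset.card_univ]
    omega
  rw [Finset.sum_sub_distrib] at hgen
  simp only [Finset.sum_const, Finset.card_univ, nsmul_eq_mul, mul_one] at hgen
  have h2g' : (2 * gen C K : ℤ) ≤ ∑ i, (gen (kC C) (kap (w i)) : ℤ) := by exact_mod_cast h2g
  have hN' : (N : ℤ) ≤ gen C K + 1 := by exact_mod_cast hN
  have hι' : (Fintype.card ι : ℤ) + 1 ≤ N := by exact_mod_cast hι
  linarith

end P025H725
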