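import Vale.Agent.P025.R2.H725.DiscFields
import Vale.Agent.P025.R2.H725.Count

/-! # P025 : Theorem 7 over a spherically complete field, the assembly -/

set_option linter.all false

open Polynomial TensorProduct Metric IntermediateField

universe u

namespace P025H725

open Vale.Agent.P019P P025H373 P025H544 P025H746 P025H621 P025H816

section group

variable {C : Type*} [NormedField C] [IsUltrametricDist C]

/-- (7.7)(iii), version with a subgroup `N` : all classes outside `N` are nonsplit at one and the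
same disc -/
theorem exists_common_disc' (hC : SphComplete C) {H : Type*} [CommGroup H] (N : Subgroup H)
    (A B S : H → C → ℝ → Prop) (h : ∀ f : H, f ∉ N → DiscProps (A f) (B f) (S f))
    (Sball : ∀ f a r a' r', 0 < r → 0 < r' → closedBall a r = closedBall a' r' →
      S f a r → S f a' r')
    (Sdiv : ∀ f g a r, 0 < r → S f a r → S g a r → S (f / g) a r)
    (SN : ∀ f ∈ N, ∀ a r, 0 < r → S f a r) :
    ∃ a r, 0 < r ∧ ∀ f : H, f ∉ N → ¬ S f a r := by
  by_cases hH : ∃ f : H, f ∉ N
  swap
  · push Not at hH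
    exact ⟨0, 1, one_pos, fun f hf => absurd (hH f) hf⟩
  obtain ⟨f, hf⟩ := hH
  obtain ⟨a, r, hr, hns⟩ := (h f hf).exists_nonsplit hC
  refine ⟨a, r, hr, fun g hg hSg => ?_⟩
  obtain ⟨a', r', hr', hns'⟩ := (h g hg).exists_nonsplit hC
  have hne : closedBall a r ≠ closedBall a' r' := by
    intro he
    exact hns' (Sball g a r a' r' hr hr' he hSg)
  have hSf : S f a' r' := by
    by_contra hcon
    exact hne ((h f hf).unique hr hr' hns hcon)
  have h1 : ¬ S (f * g) a r := by
    intro hS
    apply hns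
    have := Sdiv (f * g) g a r hr hS hSg
    rwa [mul_div_assoc, div_self', mul_one] at this
  have h2 : ¬ S (f * g) a' r' := by
    intro hS
    apply hns'
    have := Sdiv (f * g) f a' r' hr' hS hSf
    rwa [mul_div_right_comm, div_self', one_mul] at this
  have h3 : f * g ∉ N := fun h3 => h1 (SN _ h3 a r hr)
  exact hne ((h (f * g) h3).unique hr hr' h1 h2)

end group

section props

variable {C K : Type u} [NontriviallyNormedField C] [IsUltrametricDist C] [CompleteSpace C]
  [IsAlgClosed C] [Field K] [Algebra C K] [CFF C K]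

theorem radius_eq (hv : ∀ r : ℝ, 0 ≤ r → ∃ x : C, ‖x‖ = r) {a a' : C} {r r' : ℝ} (hr : 0 < r)
    (hr' : 0 < r') (h : closedBall a r = closedBall a' r') : r = r' := by
  have key : ∀ (a a' : C) (r r' : ℝ), 0 < r → 0 < r' → closedBall a r = closedBall a' r' →
      r ≤ r' := by
    intro a a' r r' hr hr' h
    obtain ⟨b, hb⟩ := hv r hr.le
    have h1 : a + b ∈ closedBall a' r' := by
      rw [← h, mem_closedBall, dist_eq_norm, add_sub_cancel_left, hb]
    have h2 : a ∈ closedBall a' r' := by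
      rw [← h]
      exact mem_closedBall_self hr.le
    rw [mem_closedBall, dist_eq_norm] at h1 h2
    rw [← hb]
    have h3 : b = (a + b - a') + (-(a - a')) := by ring
    rw [h3]
    exact (IsUltrametricDist.norm_add_le_max _ _).trans (max_le h1 (by rwa [norm_neg]))
  exact le_antisymm (key a a' r r' hr hr' h) (key a' a r' r hr' hr h.symm)

theorem SS.of_ball (hv : ∀ r : ℝ, 0 ≤ r → ∃ x : C, ‖x‖ = r) {p : ℕ} {t f : K} {a a' : C}
    {r r' : ℝ} (hr : 0 < r) (hr' : 0 < r') (h : closedBall a r = closedBall a' r')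
    (hS : SS (C := C) p t f a r) : SS p t f a' r' := by
  obtain rfl := radius_eq hv hr hr' h
  intro b hb w hw
  have hb0 : b ≠ 0 := norm_pos_iff.1 (hb ▸ hr)
  have haa : a' ∈ closedBall a r := by
    rw [h]
    exact mem_closedBall_self hr.le
  rw [mem_closedBall, dist_eq_norm] at haa
  exact hS b hb w (overG_disc hb0 rfl (by rw [hb]; exact haa) hw)

theorem SS.div {p : ℕ} (hpC : ‖(p : C)‖ < 1) {t f g : K} (hg : g ≠ 0) {a : C} {r : ℝ}
    (h1 : SS (C := C) p t f a r) (h2 : SS (C := C) p t g a r) : SS p t (f / g) a r :=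
  fun b hb w hw => SplitW.div hpC hg (h1 b hb w hw) (h2 b hb w hw)

theorem SS.of_pow [CharZero C] {p : ℕ} (hp : p.Prime) {t f : K} (hf : f ≠ 0) {y : K}
    (hy : y ^ p = f) (a : C) (r : ℝ) : SS p t f a r :=
  fun b hb w hw => SplitW.of_pow hp (by exact_mod_cast hp.ne_zero) hf hy

/-- (7.7): there is a disc at which no nontrivial class is split -/
theorem exists_disc [CharZero C] (hv : ∀ r : ℝ, 0 ≤ r → ∃ x : C, ‖x‖ = r) (hC : SphComplete C)
    {p : ℕ} (hp : p.Prime)
    (hpC : ‖(p : C)‖ < 1) (hK : NearAll C p K)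
    (hW : ∀ (W : Type u) [Field W] [Algebra K W] [Algebra C W] [IsScalarTower C K W] [CFF C W],
      IsCover C p K W → NearAll C p W)
    (hS : SplitNear C p K) {t : K} (ht : Transcendental C t) :
    ∃ (a : C) (b : C), b ≠ 0 ∧ ∀ f : K, f ≠ 0 → DivN C p f →
      Spl (C := C) p ((t - algebraMap C K a) / algebraMap C K b) f → ∃ y : K, y ^ p = f := by
  obtain ⟨a, r, hr, h⟩ := exists_common_disc' hC
    (H := divU C K p) ((powU K p).subgroupOf (divU C K p))
    (fun f => AA p t ((f : Kˣ) : K)) (fun f => BB p t ((f : Kˣ) : K))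
    (fun f => SS p t ((f : Kˣ) : K)) (by
      intro f hf
      refine discProps hv hp hpC hK hW hS ht (f : Kˣ).ne_zero (mem_divU.1 f.2) fun y hy => ?_
      exact hf (Subgroup.mem_subgroupOf.2 (mem_powU'.2 ⟨y, hy⟩)))
    (fun f a r a' r' hr hr' he hSS => SS.of_ball hv hr hr' he hSS)
    (fun f g a r hr h1 h2 => by
      have := SS.div (C := C) hpC (g : Kˣ).ne_zero h1 h2
      simpa using this)
    (fun f hf a r hr => by
      obtain ⟨y, hy⟩ := mem_powU'.1 (Subgroup.mem_subgroupOf.1 hf)
      exact SS.of_pow hp (f : Kˣ).ne_zero hy a r)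
  obtain ⟨b, hb⟩ := hv r hr.le
  have hb0 : b ≠ 0 := norm_pos_iff.1 (hb ▸ hr)
  refine ⟨a, b, hb0, fun f hf hd hspl => ?_⟩
  by_contra hcon
  have hmem : (⟨Units.mk0 f hf, mem_divU.2 hd⟩ : divU C K p) ∉
      (powU K p).subgroupOf (divU C K p) := by
    intro hm
    obtain ⟨y, hy⟩ := mem_powU'.1 (Subgroup.mem_subgroupOf.1 hm)
    exact hcon ⟨y, hy⟩
  refine h _ hmem ?_
  intro b' hb' w hw
  exact hspl w (overG_disc (norm_pos_iff.1 (hb' ▸ hr)) (hb'.trans hb.symm)
    (by rw [sub_self, norm_zero]; exact norm_nonneg _) hw)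

/-- the genus inequality of (7.1) for all `T` -/
def StabIneq (C K : Type u) [NormedField C] [IsUltrametricDist C] [Field K] [Algebra C K]
    [CFF C K] : Prop :=
  ∀ (T : K) [Fintype {w : NV C K // w.OverG T}]
    [∀ w : {w : NV C K // w.OverG T}, CFF (kC C) (kap w.1)], Transcendental C T →
    ∑ w : {w : NV C K // w.OverG T}, ((gen (kC C) (kap w.1) : ℤ) - 1) ≤ (gen C K : ℤ) - 1

/-- (7.3)(b): the Artin-Schreier class is everywhere unramified -/
def UnrAll (C : Type u) [NormedField C] [IsUltrametricDist C] (p : ℕ) (K : Type u) [Field K]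
    [Algebra C K] [CFF C K] : Prop :=
  ∀ (l : C), l ^ (p - 1) = -(p : C) → ∀ f : K, f ≠ 0 → DivN C p f → ∀ (T : K) (w : NV C K),
    w.OverG T → ∀ y A : K, y ≠ 0 → w A ≤ 1 → f = y ^ p * (1 + algebraMap C K l ^ p * A) →
    ∀ [CFF (kC C) (kap w)] (x : Plk (kC C) (kap w)),
      ∃ b : kap w, w.red A - (b ^ p - b) ∈ Mge x 0

/-- **Theorem 7**, spherically complete case, from the inputs (7.1), (7.2), (7.3). -/
theorem start_of [CharZero C] (hv : ∀ r : ℝ, 0 ≤ r → ∃ x : C, ‖x‖ = r) (hC : SphComplete C)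
    {p : ℕ} (hp : p.Prime) (hpC : ‖(p : C)‖ < 1) (hg : 1 ≤ gen C K) (hK : NearAll C p K)
    (hW : ∀ (W : Type u) [Field W] [Algebra K W] [Algebra C W] [IsScalarTower C K W] [CFF C W],
      IsCover C p K W → NearAll C p W)
    (hS : SplitNear C p K) (hU : UnrAll C p K) (hst : StabIneq C K) : False := by
  classical
  have hpC0 : (p : C) ≠ 0 := by exact_mod_cast hp.ne_zero
  obtain ⟨l, hl⟩ := IsAlgClosed.exists_pow_nat_eq (-(p : C)) (n := p - 1)
    (Nat.sub_pos_of_lt hp.one_lt)
  obtain ⟨t, ht, hdeg⟩ := exists_finrank_le C K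
  have htr : Transcendental C t := (finite_of_notMem ht).1
  obtain ⟨a, b, hb, h⟩ := exists_disc hv hC hp hpC hK hW hS htr
  set T := (t - algebraMap C K a) / algebraMap C K b with hTdef
  have hT : Transcendental C T := transc_aff htr a hb
  have hTt : C⟮T⟯ = C⟮t⟯ := by
    have h1 : T = b⁻¹ • (t - algebraMap C K a) := by
      rw [hTdef, Algebra.smul_def, map_inv₀, div_eq_inv_mul]
    apply le_antisymm
    · rw [adjoin_simple_le_iff, h1]
      exact smul_mem _ (sub_mem (mem_adjoin_simple_self C t) (IntermediateField.algebraMap_mem _ a))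
    · rw [adjoin_simple_le_iff]
      have h2 : t = b • T + algebraMap C K a := by
        rw [h1, smul_smul, mul_inv_cancel₀ hb, one_smul]
        ring
      rw [h2]
      exact add_mem (smul_mem _ (mem_adjoin_simple_self C T)) (IntermediateField.algebraMap_mem _ a)
  have hTc : ∀ c : C, T ≠ algebraMap C K c := fun c hc => hT (by
    rw [hc]
    exact isAlgebraic_algebraMap c)
  haveI hfin : FiniteDimensional C⟮T⟯ K := (finite_of_notMem hTc).2
  haveI hft : Fintype {w : NV C K // w.OverG T} := Fintype.ofFinite _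
  haveI hcff : ∀ w : {w : NV C K // w.OverG T}, CFF (kC C) (kap w.1) := fun w => w.2.cff
  refine final_count (K := K) hp hpC hpC0 hl (fun w : {w : NV C K // w.OverG T} => w.1)
    (T := T) (fun w => w.2) (N := Module.finrank C⟮T⟯ K) ?_ hg ?_ ?_ (hst T hT) ?_ ?_ ?_
  · rw [hTt]
    exact hdeg
  · intro w
    have := w.2.finite
    exact Module.finrank_pos
  · exact sum_finrank_le _ Subtype.val_injective fun w => w.2
  · intro f hf hd w
    exact hK f hf hd T w.1 w.2
  · intro f hf hd w y A hy hA hfA x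
    exact hU l hl f hf hd T w.1 w.2 y A hy hA hfA x
  · intro f hf hd hspl
    exact h f hf hd fun w hw => hspl ⟨w, hw⟩

end props

end P025H725
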