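import Vale.Agent.P025.R2.H746.Stab
import Vale.Agent.P025.R2.H725.Start7

/-! # P025 : plug of (7.1) into Theorem 7 -/

set_option linter.all false

open Polynomial Metric IntermediateField

universe u

namespace P025H725

open Vale.Agent.P019P P025H373 P025H746 P025H621 P025H816

theorem sphComplete_of_sph {C : Type*} [NormedField C] (h : P025H458.Sph C) : SphComplete C := by
  intro 𝓑 _ hpos hch
  obtain ⟨x, hx⟩ := h 𝓑 (by
    intro i hi j hj hij
    rw [← dist_eq_norm, ← mem_closedBall]
    rcases hch i hi j hj with h1 | h1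
    · exact h1 (mem_closedBall_self (hpos _ hi).le)
    · have h2 : j.1 ∈ closedBall i.1 i.2 := h1 (mem_closedBall_self (hpos _ hj).le)
      rw [mem_closedBall'] at h2
      exact mem_closedBall.2 (h2.trans hij))
  exact ⟨x, fun y hy => by rw [mem_closedBall, dist_eq_norm]; exact hx y hy⟩

variable {C K : Type u} [NontriviallyNormedField C] [IsUltrametricDist C] [CompleteSpace C]
  [IsAlgClosed C] [Field K] [Algebra C K] [CFF C K]

theorem stabIneq (hC : P025H458.Sph C) (hn : ∀ r : ℝ, 0 ≤ r → ∃ x : C, ‖x‖ = r) :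
    StabIneq C K := by
  intro T iF iC hT
  have hTc : ∀ c : C, T ≠ algebraMap C K c := fun c hc => hT (by
    rw [hc]
    exact isAlgebraic_algebraMap c)
  haveI hfin : FiniteDimensional C⟮T⟯ K := (finite_of_notMem hTc).2
  have h := (P025H746.stab hC hn hT).2
  have key : ∀ (i1 i2 : Fintype {w : NV C K // w.OverG T}) (g : {w : NV C K // w.OverG T} → ℤ),
      @Finset.sum _ _ _ (@Finset.univ _ i1) g = @Finset.sum _ _ _ (@Finset.univ _ i2) g := by
    intro i1 i2 g
    rw [Subsingleton.elim i1 i2]
  rw [key _ iF] at h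
  exact h

/-- **Theorem 7**, spherically complete case, from the inputs (7.2), (7.3). -/
theorem start_of' [CharZero C] (hv : ∀ r : ℝ, 0 ≤ r → ∃ x : C, ‖x‖ = r) (hC : P025H458.Sph C)
    {p : ℕ} (hp : p.Prime) (hpC : ‖(p : C)‖ < 1) (hg : 1 ≤ gen C K) (hK : NearAll C p K)
    (hW : ∀ (W : Type u) [Field W] [Algebra K W] [Algebra C W] [IsScalarTower C K W] [CFF C W],
      IsCover C p K W → NearAll C p W)
    (hS : SplitNear C p K) (hU : UnrAll C p K) : False :=
  start_of hv (sphComplete_of_sph hC) hp hpC hg hK hW hS hU (stabIneq hC hv)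

end P025H725
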