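import Vale.Agent.P025.R2.H816.BC3

/-! # P025: the cover `W = K(f ^ (1/p))` -/

open Polynomial

universe u

namespace P025H725

open Vale.Agent.P019P P025H816

theorem exists_cover {C K : Type u} [Field C] [Field K] [Algebra C K] [CFF C K] {p : ℕ}
    (hp : p.Prime) {f : K} (hf : ∀ b : K, b ^ p ≠ f) :
    ∃ (W : Type u) (_ : Field W) (_ : Algebra K W) (_ : Algebra C W) (_ : IsScalarTower C K W)
      (_ : CFF C W) (β : W), FiniteDimensional K W ∧ β ^ p = algebraMap K W f ∧
      IntermediateField.adjoin K {β} = ⊤ := by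
  have hirr : Irreducible (X ^ p - Polynomial.C f : K[X]) := X_pow_sub_C_irreducible_of_prime hp hf
  have hfact : Fact (Irreducible (X ^ p - Polynomial.C f : K[X])) := ⟨hirr⟩
  have hfin : FiniteDimensional K (AdjoinRoot (X ^ p - Polynomial.C f : K[X])) :=
    (AdjoinRoot.powerBasis hirr.ne_zero).finite
  have hcff : CFF C (AdjoinRoot (X ^ p - Polynomial.C f : K[X])) := cff_of_finite (K := K)
  refine ⟨AdjoinRoot (X ^ p - Polynomial.C f : K[X]), inferInstance, inferInstance, inferInstance,
    inferInstance, hcff, AdjoinRoot.root _, hfin, ?_, ?_⟩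
  · have h := AdjoinRoot.eval₂_root (X ^ p - Polynomial.C f : K[X])
    rw [eval₂_sub, eval₂_X_pow, eval₂_C, sub_eq_zero] at h
    exact h
  · exact IntermediateField.adjoin_root_eq_top _

/-- a primitive `p`-th root of unity in a field over an algebraically closed field -/
theorem exists_primitiveRoot (C K : Type*) [Field C] [IsAlgClosed C] [Field K] [Algebra C K]
    {p : ℕ} (h0 : (p : C) ≠ 0) : ∃ ζ : K, IsPrimitiveRoot ζ p := by
  have : NeZero (p : C) := ⟨h0⟩
  have hp : p ≠ 0 := by
    rintro rfl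
    exact h0 Nat.cast_zero
  obtain ⟨ζ, hζ⟩ := IsAlgClosed.exists_root (cyclotomic p C)
    (by rw [degree_cyclotomic]; exact_mod_cast (Nat.totient_pos.2 (Nat.pos_of_ne_zero hp)).ne')
  rw [isRoot_cyclotomic_iff] at hζ
  exact ⟨algebraMap C K ζ, hζ.map_of_injective (algebraMap C K).injective⟩

end P025H725
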