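import Vale.Agent.P025.R2.H621.Defs
import Vale.Agent.P025.R2.H746.Kap
import Vale.Agent.P025.R2.H725.SplitNorm

/-! # P025 (7.7): discs of places, affine changes of the parameter -/

open Polynomial Metric

universe u

namespace P025H725

open Vale.Agent.P019P P025H373 P025H746 P025H621

section places

variable {C K : Type u} [NormedField C] [Field K] [Algebra C K] [CFF C K]

theorem cst_unique {P : Plk C K} {z : K} {c c' : C} (h : z - algebraMap C K c ∈ Mge P 1)
    (h' : z - algebraMap C K c' ∈ Mge P 1) : c = c' := by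
  have h1 : algebraMap C K (c' - c) ∈ Mge P 1 := by
    have := Submodule.sub_mem _ h h'
    rw [map_sub]
    convert this using 1
    ring
  rcases mem_Mge.1 h1 with h2 | h2
  · rw [map_eq_zero, sub_eq_zero] at h2
    exact h2.symm
  · rw [ord_const] at h2
    omega

theorem disc_mono {z : K} {a a' : C} {r r' : ℝ} (h : closedBall a r ⊆ closedBall a' r') :
    Disc z a r ⊆ Disc z a' r' := by
  rintro P ⟨c, hc, hP⟩
  refine ⟨c, ?_, hP⟩
  have : c ∈ closedBall a r := by rwa [mem_closedBall, dist_eq_norm]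
  have := h this
  rwa [mem_closedBall, dist_eq_norm] at this

theorem disc_disjoint {z : K} {a a' : C} {r r' : ℝ}
    (h : Disjoint (closedBall a r) (closedBall a' r')) : Disc z a r ⊆ (Disc z a' r')ᶜ := by
  rintro P ⟨c, hc, hP⟩ ⟨c', hc', hP'⟩
  obtain rfl := cst_unique hP hP'
  have h1 : c ∈ closedBall a r := by rwa [mem_closedBall, dist_eq_norm]
  have h2 : c ∈ closedBall a' r' := by rwa [mem_closedBall, dist_eq_norm]
  exact Set.disjoint_left.1 h h1 h2

theorem inn_eq (z : K) (a : C) {b : C} (hb : b ≠ 0) :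
    Inn ((z - algebraMap C K a) / algebraMap C K b) = Disc z a ‖b‖ := by
  have hbK : algebraMap C K b ≠ 0 := by rwa [Ne, map_eq_zero]
  ext P
  constructor
  · rintro ⟨c, hc, hP⟩
    refine ⟨a + b * c, ?_, ?_⟩
    · rw [add_sub_cancel_left, norm_mul]
      rw [sub_zero] at hc
      exact mul_le_of_le_one_right (norm_nonneg _) hc
    · have := Submodule.smul_mem _ b hP
      rw [Algebra.smul_def] at this
      convert this using 1
      rw [map_add, map_mul]
      field_simp
      ring
  · rintro ⟨c, hc, hP⟩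
    refine ⟨(c - a) / b, ?_, ?_⟩
    · rw [sub_zero, norm_div, div_le_one (norm_pos_iff.2 hb)]
      exact hc
    · have := Submodule.smul_mem _ b⁻¹ hP
      rw [Algebra.smul_def] at this
      convert this using 1
      rw [map_inv₀, map_div₀, map_sub]
      field_simp
      ring

theorem transc_aff {t : K} (ht : Transcendental C t) (a : C) {b : C} (hb : b ≠ 0) :
    Transcendental C ((t - algebraMap C K a) / algebraMap C K b) := by
  have hbK : algebraMap C K b ≠ 0 := by rwa [Ne, map_eq_zero]
  refine (finite_of_notMem (k := C) (F := K) fun c hc => ?_).1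
  rw [div_eq_iff hbK, sub_eq_iff_eq_add, ← map_mul, ← map_add] at hc
  exact ht (hc ▸ isAlgebraic_algebraMap _)

end places

section gauss

variable {C K : Type*} [NormedField C] [IsUltrametricDist C] [Field K] [Algebra C K]

theorem gp_comp_le {Q : C[X]} (hQ : gp Q ≤ 1) (P : C[X]) : gp (P.comp Q) ≤ gp P := by
  have hpow : ∀ i : ℕ, gp (Q ^ i) ≤ 1 := by
    intro i
    induction i with
    | zero =>
      rw [pow_zero, gp_le_iff]
      intro i
      rw [coeff_one]
      split_ifs <;> simp
    | succ i ih =>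
      rw [pow_succ, gp_mul]
      exact mul_le_one₀ ih (gp_nonneg _) hQ
  rw [comp_eq_sum_left, Polynomial.sum]
  have key : ∀ s : Finset ℕ, gp (∑ i ∈ s, Polynomial.C (P.coeff i) * Q ^ i) ≤ gp P := by
    classical
    intro s
    induction s using Finset.induction_on with
    | empty =>
      rw [Finset.sum_empty, gp_eq_zero.2 rfl]
      exact gp_nonneg _
    | insert i s hi ih =>
      rw [Finset.sum_insert hi]
      refine (gp_add_le_max _ _).trans (max_le ?_ ih)
      rw [gp_mul]
      have h1 : gp (Polynomial.C (P.coeff i)) ≤ gp P := by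
        rw [gp_le_iff]
        intro j
        rw [coeff_C]
        split_ifs
        · exact norm_coeff_le P i
        · rw [norm_zero]; exact gp_nonneg _
      exact (mul_le_mul h1 (hpow i) (gp_nonneg _) (gp_nonneg _)).trans (by rw [mul_one])
  exact key _

theorem overG_aff {w : NV C K} {T : K} (h : w.OverG T) {u v : C} (hu : ‖u‖ = 1) (hv : ‖v‖ ≤ 1) :
    w.OverG (algebraMap C K u * T + algebraMap C K v) := by
  have hu0 : u ≠ 0 := norm_ne_zero_iff.1 (by rw [hu]; exact one_ne_zero)
  have hgp : ∀ {a b : C}, ‖a‖ ≤ 1 → ‖b‖ ≤ 1 → gp (Polynomial.C a * X + Polynomial.C b) ≤ 1 := by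
    intro a b ha hb
    rw [gp_le_iff]
    intro i
    rcases i with _ | _ | i
    · simpa using hb
    · simpa using ha
    · simp
  intro P
  have h1 : aeval (algebraMap C K u * T + algebraMap C K v) P =
      aeval T (P.comp (Polynomial.C u * X + Polynomial.C v)) := by
    rw [aeval_comp]
    simp
  rw [h1, h]
  refine le_antisymm (gp_comp_le (hgp hu.le hv) P) ?_
  have h2 : (P.comp (Polynomial.C u * X + Polynomial.C v)).comp
      (Polynomial.C u⁻¹ * X + Polynomial.C (-(u⁻¹ * v))) = P := by
    rw [comp_assoc]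
    have : (Polynomial.C u * X + Polynomial.C v).comp
        (Polynomial.C u⁻¹ * X + Polynomial.C (-(u⁻¹ * v))) = X := by
      simp only [add_comp, mul_comp, C_comp, X_comp]
      rw [mul_add, ← mul_assoc, ← C_mul, mul_inv_cancel₀ hu0, ← C_mul, mul_neg, ← mul_assoc,
        mul_inv_cancel₀ hu0, one_mul, C_neg, C_1, one_mul]
      ring
    rw [this, comp_X]
  conv_lhs => rw [← h2]
  refine gp_comp_le (hgp ?_ ?_) _
  · rw [norm_inv, hu, inv_one]
  · rw [norm_neg, norm_mul, norm_inv, hu, inv_one, one_mul]; exact hv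

/-- the norms over a disc do not depend on the centre and on the scaling. -/
theorem overG_disc {w : NV C K} {t : K} {a a' b b' : C} (hb : b ≠ 0) (hbb : ‖b‖ = ‖b'‖)
    (haa : ‖a - a'‖ ≤ ‖b‖) (h : w.OverG ((t - algebraMap C K a) / algebraMap C K b)) :
    w.OverG ((t - algebraMap C K a') / algebraMap C K b') := by
  have hb' : b' ≠ 0 := norm_ne_zero_iff.1 (hbb ▸ norm_ne_zero_iff.2 hb)
  have hbK : algebraMap C K b ≠ 0 := by rwa [Ne, map_eq_zero]
  have hbK' : algebraMap C K b' ≠ 0 := by rwa [Ne, map_eq_zero]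
  have hn : ‖b‖ ≠ 0 := norm_ne_zero_iff.2 hb
  have h1 := overG_aff h (u := b / b') (v := (a - a') / b')
    (by rw [norm_div, ← hbb, div_self hn])
    (by
      rw [norm_div, ← hbb]
      exact (div_le_one (norm_pos_iff.2 hb)).2 haa)
  convert h1 using 1
  rw [map_div₀, map_div₀, map_sub]
  field_simp
  ring

end gauss

section split

variable {C K : Type*} [NormedField C] [IsUltrametricDist C] [Field K] [Algebra C K] {p : ℕ}
  {w : NV C K}

theorem w_one_add_of_lt {z : K} (hz : w z < 1) : w (1 + z) = 1 := by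
  have h1 : w (1 + z) ≤ 1 := NV.add_le (by rw [map_one]) hz.le
  refine le_antisymm h1 ?_
  by_contra hlt
  push Not at hlt
  have h2 : w ((1 + z) + (-z)) < 1 := NV.add_lt hlt (by rwa [NV.map_neg'])
  rw [add_neg_cancel_right, map_one] at h2
  exact lt_irrefl _ h2

theorem SplitW.div (hpC : ‖(p : C)‖ < 1) {f g : K} (hg0 : g ≠ 0)
    (hf : SplitW p w f) (hg : SplitW p w g) : SplitW p w (f / g) := by
  obtain ⟨y, hy, h1⟩ := hf
  obtain ⟨y', hy', h2⟩ := hg
  have hp1 : ‖(p : C)‖ ^ p ≤ 1 := pow_le_one₀ (norm_nonneg _) hpC.le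
  have hlt : ∀ x : ℝ, x ^ (p - 1) < ‖(p : C)‖ ^ p → x < 1 := by
    intro x hx
    by_contra hcon
    push Not at hcon
    have := one_le_pow₀ hcon (n := p - 1)
    linarith
  set h := f / y ^ p - 1 with hh
  set k := g / y' ^ p - 1 with hk
  refine ⟨y / y', div_ne_zero hy hy', ?_⟩
  have hk1 : w (1 + k) = 1 := w_one_add_of_lt (hlt _ h2)
  have hk0 : 1 + k ≠ 0 := by
    intro h0
    rw [h0, map_zero] at hk1
    exact zero_ne_one hk1
  have heq : f / g / (y / y') ^ p - 1 = (h - k) / (1 + k) := by
    have hyp : y ^ p ≠ 0 := pow_ne_zero _ hy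
    have hyp' : y' ^ p ≠ 0 := pow_ne_zero _ hy'
    have h1k : 1 + k = g / y' ^ p := by rw [hk]; ring
    rw [h1k, div_pow, hk, hh]
    field_simp
    ring
  rw [heq, map_div₀, hk1, div_one]
  rcases le_total (w h) (w k) with hle | hle
  · refine lt_of_le_of_lt ?_ h2
    exact pow_le_pow_left₀ (w.av.nonneg _) (NV.sub_le hle le_rfl) _
  · refine lt_of_le_of_lt ?_ h1
    exact pow_le_pow_left₀ (w.av.nonneg _) (NV.sub_le le_rfl hle) _

omit [IsUltrametricDist C] in
theorem SplitW.of_pow (hp : p.Prime) (h0 : (p : C) ≠ 0) {f : K} (hf : f ≠ 0) {y : K}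
    (hy : y ^ p = f) : SplitW p w f := by
  have hy0 : y ≠ 0 := by
    rintro rfl
    rw [zero_pow hp.ne_zero] at hy
    exact hf hy.symm
  refine ⟨y, hy0, ?_⟩
  rw [hy, div_self hf, sub_self, map_zero, zero_pow (Nat.sub_ne_zero_of_lt hp.one_lt)]
  exact pow_pos (norm_pos_iff.2 h0) _

end split

end P025H725
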