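import Vale.Agent.P025.R2.H373.Gauss6
import Vale.Agent.P025.R2.H544.Defs

/-! # the concrete patching square -/

universe u

namespace P025H725

open P025H373 P025H544

variable (C : Type u) [NontriviallyNormedField C] [IsUltrametricDist C] [CompleteSpace C]
  [IsAlgClosed C]

/-- the Gauss fields form a patching square (copy of `P025H720.patch`) -/
theorem patch : Patch (RatFunc C) (F1 C) (F2 C) (F0 C) where
  inter x y h := by
    have h1 : (x : F0 C) ∈ F1 C ⊓ F2 C := ⟨x.2, by
      have : (x : F0 C) = (y : F0 C) := h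
      rw [this]; exact y.2⟩
    rw [F1_inf_F2, IntermediateField.mem_bot] at h1
    obtain ⟨z, hz⟩ := h1
    refine ⟨z, Subtype.ext hz, Subtype.ext ?_⟩
    have h2 : (x : F0 C) = (y : F0 C) := h
    rw [← h2]; exact hz
  fact n g := by
    obtain ⟨a, b, ha, hb, hab⟩ := exists_GL_mul (g : Matrix (Fin n) (Fin n) (F0 C)) g.isUnit
    obtain ⟨a', rfl⟩ := ha
    obtain ⟨b', rfl⟩ := hb
    refine ⟨a', b', ?_⟩
    apply Units.ext
    exact hab

end P025H725
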