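import Vale.Agent.P025.R2.H621.Spec7
import Vale.Agent.P025.R2.H725.DiscBasic
import Vale.Agent.P025.R2.H725.Cover
import Vale.Agent.P025.R2.H725.PatchC

/-! # P025 (7.7): the disc properties of one class -/

set_option linter.all false

open Polynomial TensorProduct Metric

universe u

namespace P025H725

open Vale.Agent.P019P P025H373 P025H544 P025H746 P025H621

/-! ## structures over `C(t)`, `t ↦ T` -/

section alg

variable {C K : Type u} [Field C] [Field K] [Algebra C K]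

theorem algT_tower (T : K) (hT : Transcendental C T) :
    letI := algT T hT
    IsScalarTower C (RatFunc C) K := by
  letI := algT T hT
  exact IsScalarTower.of_algebraMap_eq fun c => ((emb T hT).commutes c).symm

theorem algT_X (T : K) (hT : Transcendental C T) :
    letI := algT T hT
    algebraMap (RatFunc C) K RatFunc.X = T := emb_X T hT

theorem algT_finite {C K : Type u} [NormedField C] [IsUltrametricDist C] [Field K] [Algebra C K]
    [CFF C K] (T : K)
    (hT : Transcendental C T) :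
    letI := algT T hT
    FiniteDimensional (RatFunc C) K := by
  letI := algT T hT
  haveI := algT_tower T hT
  refine (finite_rat (algT_X T hT).symm).2 (finite_of_notMem fun a ha => ?_).2
  exact hT (ha ▸ isAlgebraic_algebraMap a)

end alg

section dict

variable {C K : Type u} [NontriviallyNormedField C] [IsUltrametricDist C] [CompleteSpace C]
  [IsAlgClosed C] [Field K] [Algebra C K] [CFF C K]

/-- `f` is a `p`-th power on the set `U`: approximations for all `ε`. -/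
def PowAll (p : ℕ) (U : Set (Plk C K)) (f : K) : Prop := ∀ ε : ℝ, 0 < ε → PowOn p ε U f

theorem PowAll.mono {p : ℕ} {U V : Set (Plk C K)} {f : K} (h : PowAll p V f) (hU : U ⊆ V) :
    PowAll p U f := fun ε hε => (h ε hε).mono hU

/-- the inner side of `T` -/
def In1 (p : ℕ) (T : K) (hT : Transcendental C T) (f : K) : Prop :=
  letI := algT T hT
  PowIn (RatFunc C) (F1 C) p f

/-- the outer side of `T` -/
def In2 (p : ℕ) (T : K) (hT : Transcendental C T) (f : K) : Prop :=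
  letI := algT T hT
  PowIn (RatFunc C) (F2 C) p f

/-- the overlap -/
def In0 (p : ℕ) (T : K) (hT : Transcendental C T) (f : K) : Prop :=
  letI := algT T hT
  PowIn (RatFunc C) (F0 C) p f

variable {p : ℕ} {T : K} {hT : Transcendental C T} {f : K}

theorem In1.of_powOn (h0 : (p : C) ≠ 0) (hf : f ≠ 0) {ε : ℝ} (hε : ε < ‖(p : C)‖ ^ 2)
    (h : PowOn p ε (Inn (C := C) T) f) : In1 p T hT f := by
  letI := algT T hT
  haveI := algT_tower T hT
  haveI := algT_finite T hT
  exact dict1_of h0 hf hε (by rw [algT_X T hT]; exact h)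

theorem In1.powAll (h0 : (p : C) ≠ 0) (hf : f ≠ 0) (h : In1 p T hT f) :
    PowAll p (Inn (C := C) T) f := by
  letI := algT T hT
  haveI := algT_tower T hT
  haveI := algT_finite T hT
  intro ε hε
  have h1 := dict1_to h0 hf h hε
  rwa [algT_X T hT] at h1

theorem In2.of_powOn (h0 : (p : C) ≠ 0) (hf : f ≠ 0) {ε : ℝ} (hε : ε < ‖(p : C)‖ ^ 2)
    (h : PowOn p ε (Inn (C := C) T)ᶜ f) : In2 p T hT f := by
  letI := algT T hT
  haveI := algT_tower T hT
  haveI := algT_finite T hT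
  exact dict2_of h0 hf hε (by rw [algT_X T hT]; exact h)

theorem In2.powAll (h0 : (p : C) ≠ 0) (hf : f ≠ 0) (h : In2 p T hT f) :
    PowAll p (Inn (C := C) T)ᶜ f := by
  letI := algT T hT
  haveI := algT_tower T hT
  haveI := algT_finite T hT
  intro ε hε
  have h1 := dict2_to h0 hf h hε
  rwa [algT_X T hT] at h1

theorem In1.in0 (h : In1 p T hT f) : In0 p T hT f := by
  letI := algT T hT
  haveI := algT_tower T hT
  exact PowIn.bc h

theorem In2.in0 (h : In2 p T hT f) : In0 p T hT f := by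
  letI := algT T hT
  haveI := algT_tower T hT
  exact PowIn.bc h

theorem in0_iff [CharZero C] (hp : p.Prime) (hpC : ‖(p : C)‖ < 1) (hf : f ≠ 0) :
    Spl (C := C) p T f ↔ In0 p T hT f := by
  letI := algT T hT
  haveI := algT_tower T hT
  haveI := algT_finite T hT
  have h1 := spl_iff (C := C) (K := K) hp hpC hf
  rw [algT_X T hT] at h1
  exact h1

/-- (NT) for `K` -/
theorem nt_T [CharZero C] (hp : p.Prime) (hpC : ‖(p : C)‖ < 1) (hK : NearAll C p K) (hf : f ≠ 0)
    (h1 : In1 p T hT f) (h2 : In2 p T hT f) : ∃ y : K, y ^ p = f := by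
  letI := algT T hT
  haveI := algT_tower T hT
  haveI := algT_finite T hT
  exact nt (C := C) hp hpC (fun g hg hd w hw => hK g hg hd _ w hw) hf h1 h2

/-- weak (7.6) -/
theorem one_T [CharZero C] (hp : p.Prime) (hpC : ‖(p : C)‖ < 1)
    (hW : ∀ (W : Type u) [Field W] [Algebra K W] [Algebra C W] [IsScalarTower C K W] [CFF C W],
      IsCover C p K W → NearAll C p W)
    (hf : f ≠ 0) (hd : DivN C p f) (h0 : In0 p T hT f) : In1 p T hT f ∨ In2 p T hT f := by
  by_cases hb : ∃ b : K, b ^ p = f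
  · obtain ⟨b, hb⟩ := hb
    letI := algT T hT
    exact Or.inl (PowIn.of_pow hb)
  push Not at hb
  obtain ⟨W, iW, iKW, iCW, iT, iCFF, β, hfin, hβ, htop⟩ := exists_cover (C := C) hp hb
  have hnear : NearAll C p W := hW W ⟨f, β, hf, hd, hβ, htop⟩
  letI := algT T hT
  haveI := algT_tower T hT
  haveI := algT_finite T hT
  letI algW : Algebra (RatFunc C) W :=
    ((algebraMap K W).comp (algebraMap (RatFunc C) K)).toAlgebra
  haveI tow1 : IsScalarTower (RatFunc C) K W := IsScalarTower.of_algebraMap_eq fun x => rfl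
  haveI tow2 : IsScalarTower C (RatFunc C) W := IsScalarTower.of_algebraMap_eq fun c => by
    rw [IsScalarTower.algebraMap_apply C K W, IsScalarTower.algebraMap_apply C (RatFunc C) K]
    rfl
  haveI finW : FiniteDimensional (RatFunc C) W := FiniteDimensional.trans (RatFunc C) K W
  have hpC0 : (p : C) ≠ 0 := by exact_mod_cast hp.ne_zero
  obtain ⟨ζ, hζ⟩ := exists_primitiveRoot C K hpC0
  refine one_vertex (W := W) (patch C) hp hζ hf hβ htop ?_ h0
  intro x hx h1 h2
  have hx' : algebraMap K W x ≠ 0 := by rwa [Ne, map_eq_zero]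
  exact nt (C := C) hp hpC (fun g hg hd w hw => hnear g hg hd _ w hw) hx' h1 h2

end dict

/-! ## the disc properties -/

section props

variable {C K : Type u} [NontriviallyNormedField C] [IsUltrametricDist C] [CompleteSpace C]
  [IsAlgClosed C] [Field K] [Algebra C K] [CFF C K]

/-- inside -/
def AA (p : ℕ) (t f : K) (a : C) (r : ℝ) : Prop := PowAll p (Disc t a r) f

/-- outside -/
def BB (p : ℕ) (t f : K) (a : C) (r : ℝ) : Prop := PowAll p (Disc t a r)ᶜ f

/-- boundary -/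
def SS (p : ℕ) (t f : K) (a : C) (r : ℝ) : Prop :=
  ∀ b : C, ‖b‖ = r → Spl (C := C) p ((t - algebraMap C K a) / algebraMap C K b) f

theorem discProps [CharZero C] (hv : ∀ r : ℝ, 0 ≤ r → ∃ x : C, ‖x‖ = r) {p : ℕ} (hp : p.Prime)
    (hpC : ‖(p : C)‖ < 1) (hK : NearAll C p K)
    (hW : ∀ (W : Type u) [Field W] [Algebra K W] [Algebra C W] [IsScalarTower C K W] [CFF C W],
      IsCover C p K W → NearAll C p W)
    (hS : SplitNear C p K) {t : K} (ht : Transcendental C t) {f : K} (hf : f ≠ 0)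
    (hd : DivN C p f) (hnp : ∀ y : K, y ^ p ≠ f) :
    DiscProps (AA (C := C) p t f) (BB p t f) (SS p t f) := by
  have hpC0 : (p : C) ≠ 0 := by exact_mod_cast hp.ne_zero
  have hnp0 : 0 < ‖(p : C)‖ := norm_pos_iff.2 hpC0
  have hε0 : 0 < ‖(p : C)‖ ^ 2 / 4 := by positivity
  have hε1 : 2 * (‖(p : C)‖ ^ 2 / 4) < ‖(p : C)‖ ^ 2 := by nlinarith [pow_pos hnp0 2]
  have hε2 : ‖(p : C)‖ ^ 2 / 4 < ‖(p : C)‖ ^ 2 := by linarith
  have hε3 : ‖(p : C)‖ ^ 2 / 4 < 1 := by
    have : ‖(p : C)‖ ^ 2 ≤ 1 := pow_le_one₀ hnp0.le hpC.le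
    linarith
  set ε := ‖(p : C)‖ ^ 2 / 4 with hε
  -- scale
  have hsc : ∀ r : ℝ, 0 < r → ∃ b : C, b ≠ 0 ∧ ‖b‖ = r := by
    intro r hr
    obtain ⟨b, hb⟩ := hv r hr.le
    exact ⟨b, norm_pos_iff.1 (hb ▸ hr), hb⟩
  -- passage to tensor products
  have hTr : ∀ (a : C) {b : C}, b ≠ 0 →
      Transcendental C ((t - algebraMap C K a) / algebraMap C K b) := fun a b hb =>
    transc_aff ht a hb
  have A1 : ∀ (a : C) {b : C} (hb : b ≠ 0) (e : ℝ), e < ‖(p : C)‖ ^ 2 →
      PowOn p e (Disc t a ‖b‖) f → In1 p _ (hTr a hb) f := by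
    intro a b hb e he h
    exact In1.of_powOn hpC0 hf he (by rw [inn_eq t a hb]; exact h)
  have A2 : ∀ (a : C) {b : C} (hb : b ≠ 0), In1 p _ (hTr a hb) f → AA p t f a ‖b‖ := by
    intro a b hb h
    have := In1.powAll hpC0 hf h
    rwa [inn_eq t a hb] at this
  have B1 : ∀ (a : C) {b : C} (hb : b ≠ 0) (e : ℝ), e < ‖(p : C)‖ ^ 2 →
      PowOn p e (Disc t a ‖b‖)ᶜ f → In2 p _ (hTr a hb) f := by
    intro a b hb e he h
    exact In2.of_powOn hpC0 hf he (by rw [inn_eq t a hb]; exact h)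
  have B2 : ∀ (a : C) {b : C} (hb : b ≠ 0), In2 p _ (hTr a hb) f → BB p t f a ‖b‖ := by
    intro a b hb h
    have := In2.powAll hpC0 hf h
    rwa [inn_eq t a hb] at this
  refine
    { ins := ?_
      out := ?_
      dis := ?_
      insS := ?_
      outS := ?_
      one := ?_
      nt := ?_
      brOut := ?_
      large := ?_
      small := ?_
      ovc := ?_
      tau := ?_ }
  · intro a r a' r' _ _ h hA
    exact hA.mono (disc_mono h)
  · intro a r a' r' _ _ h hB
    exact hB.mono (Set.compl_subset_compl.2 (disc_mono h))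
  · intro a r a' r' _ _ h hB
    exact hB.mono (disc_disjoint h)
  · rintro a r hr hA b rfl
    have hb : b ≠ 0 := norm_pos_iff.1 hr
    exact (in0_iff hp hpC hf).2 (A1 a hb ε hε2 (hA ε hε0)).in0
  · rintro a r hr hB b rfl
    have hb : b ≠ 0 := norm_pos_iff.1 hr
    exact (in0_iff hp hpC hf).2 (B1 a hb ε hε2 (hB ε hε0)).in0
  · intro a r hr hSS
    obtain ⟨b, hb, rfl⟩ := hsc r hr
    have h0 : In0 p _ (hTr a hb) f := (in0_iff hp hpC hf).1 (hSS b rfl)
    rcases one_T hp hpC hW hf hd h0 with h1 | h1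
    · exact Or.inl (A2 a hb h1)
    · exact Or.inr (B2 a hb h1)
  · intro a r hr hA hB
    obtain ⟨b, hb, rfl⟩ := hsc r hr
    obtain ⟨y, hy⟩ := nt_T hp hpC hK hf (A1 a hb ε hε2 (hA ε hε0)) (B1 a hb ε hε2 (hB ε hε0))
    exact hnp y hy
  · intro a r hr
    obtain ⟨b, hb, rfl⟩ := hsc r hr
    obtain ⟨r₁, hr₁, h⟩ := hS f hf hd t ht a b hb
    refine ⟨r₁, hr₁, ?_⟩
    rintro r' h1 h2 b' rfl
    exact h b' h1 h2
  · obtain ⟨R, hR, h⟩ := powOn_large hp.ne_zero t ht f hf hd ε hε0 (0 : C)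
    obtain ⟨b, hb, rfl⟩ := hsc R hR
    exact ⟨‖b‖, hR, B2 0 hb (B1 0 hb ε hε2 h)⟩
  · intro a
    obtain ⟨r, hr, h⟩ := powOn_small hp.ne_zero t ht f hf hd ε hε0 a
    obtain ⟨b, hb, rfl⟩ := hsc r hr
    exact ⟨‖b‖, hr, A2 a hb (A1 a hb ε hε2 h)⟩
  · intro a r hr hA
    obtain ⟨g, hg, h⟩ := hA ε hε0
    have h' : ∀ P ∈ Disc t a r, InBall P (f / g ^ p - 1) 0 ε := by
      intro P hP
      obtain ⟨c, hc, hPc⟩ := h P hP
      refine ⟨c - 1, by simpa using hc, ?_⟩
      convert hPc using 1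
      rw [map_sub, map_one]
      ring
    obtain ⟨r₁, hr₁, h1⟩ := exists_bigger_disc hv t ht a r hr _ ε hε0 h'
    have hr₁0 : 0 < r₁ := hr.trans hr₁
    obtain ⟨b, hb, rfl⟩ := hsc r₁ hr₁0
    refine ⟨‖b‖, hr₁, A2 a hb (A1 a hb (2 * ε) hε1 ⟨g, hg, fun P hP => ?_⟩)⟩
    obtain ⟨c, hc, hPc⟩ := h1 P hP
    refine ⟨c + 1, by simpa using hc, ?_⟩
    convert hPc using 1
    rw [map_add, map_one]
    ring
  · intro a r hr hB hA
    obtain ⟨g, hg, h⟩ := hB ε hε0
    have h' : ∀ P ∉ Disc t a r, InBall P (f / g ^ p - 1) 0 ε := by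
      intro P hP
      obtain ⟨c, hc, hPc⟩ := h P hP
      refine ⟨c - 1, by simpa using hc, ?_⟩
      convert hPc using 1
      rw [map_sub, map_one]
      ring
    obtain ⟨Δ, r₁, hne, hr₁0, hr₁, hΔ, hΔ', hout⟩ := exists_outer hv t ht a r hr _ ε hε0 h'
    obtain ⟨b, hb, rfl⟩ := hsc r₁ hr₁0
    have hsep : ∀ δ ∈ Δ, ∀ δ' ∈ Δ, δ ≠ δ' → ‖b‖ < ‖δ - δ'‖ := by
      intro δ hδ δ' hδ' hne
      rw [hΔ' δ hδ δ' hδ' hne]
      exact hr₁
    obtain ⟨τ, hτ, hInn⟩ := inn_tau t ht Δ hne b hb hsep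
    have hU : PowOn p ε (⋃ δ ∈ Δ, Disc t δ ‖b‖) f := by
      refine powOn_iUnion hv hp.ne_zero t ht f hf ‖b‖ hr₁0 Δ hsep ε hε0 hε3 fun δ hδ => ?_
      refine hA δ ?_ ‖b‖ hr₁0 hr₁ ε hε0
      rw [mem_closedBall, dist_eq_norm]
      exact hΔ δ hδ
    have hV : PowOn p (2 * ε) (⋃ δ ∈ Δ, Disc t δ ‖b‖)ᶜ f := by
      refine ⟨g, hg, fun P hP => ?_⟩
      have hP' : ∀ δ ∈ Δ, P ∉ Disc t δ ‖b‖ := by
        intro δ hδ hmem
        exact hP (Set.mem_biUnion hδ hmem)
      obtain ⟨c, hc, hPc⟩ := hout P hP'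
      refine ⟨c + 1, by simpa using hc, ?_⟩
      convert hPc using 1
      rw [map_add, map_one]
      ring
    have h1 : In1 p τ hτ f := In1.of_powOn hpC0 hf hε2 (by rw [hInn]; exact hU)
    have h2 : In2 p τ hτ f := In2.of_powOn hpC0 hf hε1 (by rw [hInn]; exact hV)
    obtain ⟨y, hy⟩ := nt_T hp hpC hK hf h1 h2
    exact hnp y hy

end props

end P025H725
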