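import Vale.Agent.P025.R2.H816.J03

/-! # P025 (7.8): genus zero for degree one; a function of degree `≤ g + 1` -/

open Polynomial IntermediateField Vale.Agent.P019P

namespace P025H725

variable {k F : Type*} [Field k] [Field F] [Algebra k F] [CFF k F]

theorem aeval_mem_LL (x : F) (r : ℕ) {P : k[X]}
    (hP : P.natDegree ≤ r) : aeval x P ∈ LL k (r • pol k x) := by
  rw [aeval_eq_sum_range' (Nat.lt_succ_of_le hP)]
  refine Submodule.sum_mem _ fun i hi => Submodule.smul_mem _ _ ?_
  rw [Finset.mem_range] at hi
  refine mem_LL.2 (Or.inr fun Q => ?_)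
  rw [ord_pow, Finsupp.smul_apply, pol_apply, nsmul_eq_mul]
  have h1 : (i : ℤ) ≤ r := by exact_mod_cast Nat.le_of_lt_succ hi
  have h0 : (0 : ℤ) ≤ i := Int.natCast_nonneg i
  rcases le_total 0 (ord Q x) with h | h
  · rw [max_eq_left (by omega)]
    rw [mul_zero, neg_zero]
    exact mul_nonneg h0 h
  · rw [max_eq_right (by omega)]
    nlinarith

/-- a function field of degree one over `k(x)` has genus zero -/
theorem gen_eq_zero_of_finrank_eq_one {x : F} (hx : ∀ a : k, x ≠ algebraMap k F a)
    (h1 : Module.finrank k⟮x⟯ F = 1) : gen k F = 0 := by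
  obtain ⟨r₀, hr₀⟩ := exists_l_pol_eq hx
  have h2 := hr₀ r₀ le_rfl
  have htr : Transcendental k x := (finite_of_notMem hx).1
  have h3 : r₀ + 1 ≤ Module.finrank k (LL k (r₀ • pol k x)) := by
    let φ : degreeLT k (r₀ + 1) →ₗ[k] LL k (r₀ • pol k x) :=
      LinearMap.codRestrict _ ((aeval x : k[X] →ₐ[k] F).toLinearMap.comp
        (degreeLT k (r₀ + 1)).subtype) (by
          intro P
          refine aeval_mem_LL x r₀ ?_
          have h7 := mem_degreeLT.1 P.2
          by_cases hP0 : (P : k[X]) = 0
          · change (P : k[X]).natDegree ≤ r₀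
            rw [hP0, natDegree_zero]
            exact Nat.zero_le _
          · exact Nat.lt_succ_iff.1 ((natDegree_lt_iff_degree_lt hP0).2 h7))
    have hφ : Function.Injective φ := by
      intro P Q h
      have h4 : aeval x (P : k[X]) = aeval x (Q : k[X]) := congrArg Subtype.val h
      exact Subtype.ext (transcendental_iff_injective.1 htr h4)
    have h5 := LinearMap.finrank_le_finrank_of_injective hφ
    have h6 : Module.finrank k (degreeLT k (r₀ + 1)) = r₀ + 1 := by
      rw [(degreeLTEquiv k (r₀ + 1)).finrank_eq, Module.finrank_fin_fun]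
    rwa [h6] at h5
  rw [h1] at h2
  push_cast at h2
  omega

variable (k F) in
open Classical in
/-- there is a function of degree at most `g + 1` -/
theorem exists_finrank_le : ∃ t : F, (∀ a : k, t ≠ algebraMap k F a) ∧
    Module.finrank k⟮t⟯ F ≤ gen k F + 1 := by
  obtain ⟨P⟩ := nonempty_Plk (k := k) (F := F)
  set D : Plk k F →₀ ℤ := Finsupp.single P ((gen k F : ℤ) + 1) with hD
  have hdg : dg D = gen k F + 1 := dg_sgl _ _
  have h1 := RR D
  rw [hdg] at h1
  have h2 : 2 ≤ Module.finrank k (LL k D) := by omega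
  -- a nonconstant element
  obtain ⟨t, ht, htc⟩ : ∃ t ∈ LL k D, ∀ a : k, t ≠ algebraMap k F a := by
    by_contra hcon
    push Not at hcon
    have h3 : LL k D ≤ Submodule.span k {(1 : F)} := by
      intro t ht
      obtain ⟨a, ha⟩ := hcon t ht
      rw [Submodule.mem_span_singleton]
      exact ⟨a, by rw [ha, Algebra.smul_def, mul_one]⟩
    have h4 := Submodule.finrank_mono h3
    have h5 : Module.finrank k (Submodule.span k {(1 : F)}) ≤ 1 := by
      have := finrank_span_le_card (R := k) ({(1 : F)} : Set F)
      simpa using this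
    omega
  refine ⟨t, htc, ?_⟩
  have h3 : pol k t ≤ D := by
    intro Q
    rw [pol_apply]
    have ht0 : t ≠ 0 := by
      intro h0
      exact htc 0 (by rw [h0, map_zero])
    have h4 := (mem_LL.1 ht).resolve_left ht0 Q
    have h5 : 0 ≤ D Q := by
      rw [hD]
      rw [Finsupp.single_apply]
      split_ifs <;> omega
    omega
  have h4 := dg_mono h3
  rw [dg_pol htc, hdg] at h4
  exact_mod_cast h4

end P025H725
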