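import Vale.Agent.P025.R2.H725.StabPlug
import Vale.Agent.P025.R2.H497.Final

/-! # P025 : Theorem 7 over a spherically complete field from (7.2) only -/

set_option linter.all false

open Polynomial Metric IntermediateField

universe u

namespace P025H725

open Vale.Agent.P019P P025H373 P025H746 P025H621 P025H816

theorem sph_of_sphComplete {C : Type*} [NormedField C] [IsUltrametricDist C]
    (h : SphComplete C) : P025H458.Sph C := by
  intro S hS
  by_cases h0 : ∃ q ∈ S, q.2 ≤ 0
  · obtain ⟨q, hq, hq0⟩ := h0
    refine ⟨q.1, fun p hp => ?_⟩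
    rcases le_total q.2 p.2 with h1 | h1
    · exact hS q hq p hp h1
    · have h2 := hS p hp q hq h1
      have h3 := hS p hp p hp le_rfl
      rw [sub_self, norm_zero] at h3
      have h4 : p.2 = 0 := le_antisymm (h1.trans hq0) h3
      have h5 : ‖p.1 - q.1‖ = 0 := le_antisymm (h2.trans hq0) (norm_nonneg _)
      rw [h4, norm_sub_rev, h5]
  · push Not at h0
    by_cases hne : S.Nonempty
    · obtain ⟨a, ha⟩ := h S hne h0 (by
        intro x hx y hy
        rcases le_total x.2 y.2 with h1 | h1
        · left
          have h2 := hS x hx y hy h1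
          intro z hz
          rw [mem_closedBall, dist_eq_norm] at hz ⊢
          have h3 : z - y.1 = (z - x.1) + (x.1 - y.1) := by ring
          rw [h3]
          exact (IsUltrametricDist.norm_add_le_max _ _).trans (max_le (hz.trans h1) h2)
        · right
          have h2 := hS y hy x hx h1
          intro z hz
          rw [mem_closedBall, dist_eq_norm] at hz ⊢
          have h3 : z - x.1 = (z - y.1) + (y.1 - x.1) := by ring
          rw [h3]
          exact (IsUltrametricDist.norm_add_le_max _ _).trans (max_le (hz.trans h1) h2))
      refine ⟨a, fun p hp => ?_⟩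
      have := ha p hp
      rwa [mem_closedBall, dist_eq_norm] at this
    · exact ⟨0, fun p hp => absurd ⟨p, hp⟩ hne⟩

variable {C K : Type u} [NontriviallyNormedField C] [IsUltrametricDist C] [CompleteSpace C]
  [IsAlgClosed C] [Field K] [Algebra C K] [CFF C K]

/-- **Theorem 7**, spherically complete case, from (7.2) for `K` and its covers. -/
theorem start_near [CharZero C] (hv : ∀ r : ℝ, 0 ≤ r → ∃ x : C, ‖x‖ = r) (hC : SphComplete C)
    {p : ℕ} (hp : p.Prime) (hpC : ‖(p : C)‖ < 1) (hg : 1 ≤ gen C K) (hK : NearAll C p K)
    (hW : ∀ (W : Type u) [Field W] [Algebra K W] [Algebra C W] [IsScalarTower C K W] [CFF C W],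
      IsCover C p K W → NearAll C p W) : False := by
  have hS := sph_of_sphComplete hC
  refine start_of' hv hS hp hpC hg hK hW ?_ ?_
  · intro f hf hd t ht a b hb
    exact P025H497.split_near hS hv hp hpC hK f hf hd t ht a b hb
  · intro l hl f hf hd T w hw y A hy hA hfA iC x
    exact P025H497.unr hS hv hp hpC hK l hl f hf hd T w hw y A hy hA hfA x

end P025H725
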